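import Vale.Agent.P091.T.H120.RepS
import Vale.Agent.P091.T.H103.Dat

/-! # P091, E1-D, route B, item (b): the fields `pi, s, c, P, e, E, err` of `H103.Dat` and
`s1`, `c1`, `ph1`, `T2`, `err0` -/

set_option autoImplicit false

open Finset

namespace Vale.Agent.P091.T.H120

open Vale.Agent.P091.Spec (e nd avC av)
open Vale.Agent.P065.Ent
open Vale.Agent.P091.H413 Vale.Agent.P091.T.H350
open Vale.Agent.P091.T.H522 (em lo)

noncomputable section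

variable {n b : ℕ} {C1 D : ℝ} {ι : Type} [Fintype ι] (d : ZData C1 D n b ι) (A : ℝ)
  (J : List (Un n b)) (j0 a0 : ℕ)

/-- field `pi` -/
def fpi (t : ℕ) (w : Node) (κ : ι) (i : ZMod (2 ^ (n + b))) : ℝ := H233.wtZ d A J j0 a0 t κ w i

/-- field `s` -/
def fs (t : ℕ) (w : Node) (κ : ι) (i : ZMod (2 ^ (n + b))) (x : Node) (q : QJ J) : ℂ :=
  sS J (j0 + w.length) (ES d A J j0 a0 t w κ) (d.r κ) i q (ia a0 x)

/-- field `c` -/
def fc (t : ℕ) (w : Node) (κ : ι) (i : ZMod (2 ^ (n + b))) : ℂ :=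
  cS J (j0 + w.length) (ES d A J j0 a0 t w κ) (d.r κ) i

/-- field `P` -/
def fP (q : QJ J) (y : Node) : ℝ := kerJ J (ia a0 y) q

/-- field `e` -/
def fe (κ : ι) (y : Node) : ℂ := ch n b (-(d.r κ * (ia a0 y : ℕ)))

/-- field `E` -/
def fE (i : ZMod (2 ^ (n + b))) (y : Node) : ℂ := ch n b (-(i * (ia a0 y : ℕ)))

/-- field `err`, `o` = status at `v` -/
def ferr (b : ℕ) (o : Option Node) (v : Node) : ℝ :=
  match o with
  | none => 0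
  | some w => 4 * Real.pi / 2 ^ b / 2 ^ (v.length - w.length)

variable {d A J j0 a0}

theorem fpi_nonneg (hJ : ∀ k ∈ J, IsProb k.P) (t : ℕ) (w : Node) (κ : ι)
    (i : ZMod (2 ^ (n + b))) : 0 ≤ fpi d A J j0 a0 t w κ i := H233.wtZ_nonneg d A j0 a0 hJ t κ w i

theorem sum_fpi_le (hJ : ∀ k ∈ J, IsProb k.P) (t : ℕ) (w : Node) (κ : ι) :
    ∑ i, fpi d A J j0 a0 t w κ i ≤ 1 := H233.sum_wtZ_le d A j0 a0 hJ t κ w

/-- `s1` -/
theorem norm_fs_le (hJ : ∀ k ∈ J, IsProb k.P) (t : ℕ) (w : Node) (κ : ι)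
    (i : ZMod (2 ^ (n + b))) (x : Node) (q : QJ J) : ‖fs d A J j0 a0 t w κ i x q‖ ≤ 1 :=
  norm_sS_le hJ _ _ _ _ _ _

/-- `c1` -/
theorem norm_fc_le (hJ : ∀ k ∈ J, IsProb k.P) (hJ' : ∀ k ∈ J, IsProb k.ρ) (t : ℕ) (w : Node)
    (κ : ι) (i : ZMod (2 ^ (n + b))) : ‖fc d A J j0 a0 t w κ i‖ ≤ 1 :=
  norm_cS_le hJ hJ' _ _ _ _

theorem ph_eq (hJ : ∀ k ∈ J, IsProb k.P) (hJ' : ∀ k ∈ J, IsProb k.ρ) (t : ℕ) (w : Node)
    (κ : ι) : ∑ i, (fpi d A J j0 a0 t w κ i : ℂ) * fc d A J j0 a0 t w κ i =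
      phiJ J (j0 + w.length) (ES d A J j0 a0 t w κ) := by
  rw [← sum_wE_cS hJ hJ' (j0 + w.length) (ES d A J j0 a0 t w κ) (d.r κ)]
  refine sum_congr rfl fun i _ => ?_
  unfold fpi fc
  rw [wtZ_eq]

/-- `ph1` -/
theorem ph_ge (hJ : ∀ k ∈ J, IsProb k.P) (hJ' : ∀ k ∈ J, IsProb k.ρ)
    (hφ : PhiGe d A J j0 a0) {t : ℕ} {w : Node} {κ : ι}
    (h : κ ∈ (H233.pdZ d A J j0 a0).new w t) :
    1 / 4 ≤ ‖∑ i, (fpi d A J j0 a0 t w κ i : ℂ) * fc d A J j0 a0 t w κ i‖ := by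
  rw [ph_eq hJ hJ']
  exact hφ t κ w h

theorem fP_nonneg (hJ' : ∀ k ∈ J, IsProb k.ρ) (q : QJ J) (y : Node) : 0 ≤ fP J a0 q y :=
  kerJ_nonneg hJ' _ _

theorem sum_fP (hJ' : ∀ k ∈ J, IsProb k.ρ) (y : Node) : ∑ q : QJ J, fP J a0 q y = 1 :=
  sum_kerJ hJ' _

theorem norm_fe (κ : ι) (y : Node) : ‖fe d a0 κ y‖ = 1 := norm_ch _

theorem norm_fE (i : ZMod (2 ^ (n + b))) (y : Node) : ‖fE a0 i y‖ = 1 := norm_ch _

/-- `T2` -/
theorem fT2 (hJ : ∀ k ∈ J, IsProb k.P) (hJ' : ∀ k ∈ J, IsProb k.ρ) (t : ℕ) (κ : ι)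
    {w v x y : Node} (hwv : w.length ≤ v.length) (i : ZMod (2 ^ (n + b)))
    (hx : j0 + x.length = n) (hvx : v <:+ x) (hy : j0 + y.length = n) (hvy : v <:+ y) :
    ‖∑ q, fs d A J j0 a0 t w κ i x q * (fP J a0 q y : ℂ) * fE a0 i y -
      fc d A J j0 a0 t w κ i * fe d a0 κ y‖ ≤ 4 * Real.pi / 2 ^ b / 2 ^ (v.length - w.length) := by
  have h1 := sS_rep hJ hJ' (ES d A J j0 a0 t w κ) (j' := j0 + v.length) (a' := ia a0 v)
    (by omega) (by have := hvx.length_le; omega) (d.r κ) i (x := ia a0 x) (y := ia a0 y)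
    (ia_mem_nd' hvx hx) (ia_mem_nd' hvy hy)
  rw [show j0 + v.length - (j0 + w.length) = v.length - w.length by omega] at h1
  exact h1

theorem ferr_nonneg (b : ℕ) (o : Option Node) (v : Node) : 0 ≤ ferr b o v := by
  unfold ferr
  split <;> positivity

end

end Vale.Agent.P091.T.H120
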