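import Vale.Agent.P091.T.H120.RepW

/-! # P091, row E1-B: normalised coefficients (the fields `s`, `c` of `H103.Dat`) -/

set_option autoImplicit false

open Finset

namespace Vale.Agent.P091.T.H120

open Vale.Agent.P091.Spec (e nd avC av)
open Vale.Agent.P065.Ent
open Vale.Agent.P091.H413 Vale.Agent.P091.T.H350
open Vale.Agent.P091.T.H522 (em lo)

noncomputable section

variable {n b : ℕ}

open Classical in
/-- raw sum of the values -/
def rS (J : List (Un n b)) (j : ℕ) (E : Finset (ZMod (2 ^ (n + b - j)))) (r i : ZMod (2 ^ (n + b)))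
    (q : QJ J) (x : ℕ) : ℂ :=
  ∑ ω : QJ J, if rd n b j (RJ J ω) ∈ E ∧
      em (n + b) j (rd n b j r + rd n b j (RJ J ω)) = i then
      (wtJ J ω : ℂ) * psiJ J ω q * e (-dl j r (RJ J ω) * x) else 0

open Classical in
/-- raw sum of the constants -/
def rC (J : List (Un n b)) (j : ℕ) (E : Finset (ZMod (2 ^ (n + b - j))))
    (r i : ZMod (2 ^ (n + b))) : ℂ :=
  ∑ ω : QJ J, if rd n b j (RJ J ω) ∈ E ∧
      em (n + b) j (rd n b j r + rd n b j (RJ J ω)) = i then
      (wtJ J ω : ℂ) * ccJ J ω else 0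

theorem norm_rS_le {J : List (Un n b)} (hJ : ∀ k ∈ J, IsProb k.P) (j : ℕ)
    (E : Finset (ZMod (2 ^ (n + b - j)))) (r i : ZMod (2 ^ (n + b))) (q : QJ J) (x : ℕ) :
    ‖rS J j E r i q x‖ ≤ wE J j E r i := by
  classical
  unfold rS wE
  refine (norm_sum_le _ _).trans (sum_le_sum fun ω _ => ?_)
  split_ifs
  · rw [norm_mul, norm_mul, norm_psiJ, norm_e, Complex.norm_real,
      Real.norm_of_nonneg (wtJ_nonneg hJ ω), mul_one, mul_one]
  · rw [norm_zero]

theorem norm_rC_le {J : List (Un n b)} (hJ : ∀ k ∈ J, IsProb k.P) (hJ' : ∀ k ∈ J, IsProb k.ρ)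
    (j : ℕ) (E : Finset (ZMod (2 ^ (n + b - j)))) (r i : ZMod (2 ^ (n + b))) :
    ‖rC J j E r i‖ ≤ wE J j E r i := by
  classical
  unfold rC wE
  refine (norm_sum_le _ _).trans (sum_le_sum fun ω _ => ?_)
  split_ifs
  · rw [norm_mul, Complex.norm_real, Real.norm_of_nonneg (wtJ_nonneg hJ ω)]
    exact mul_le_of_le_one_right (wtJ_nonneg hJ ω) (norm_ccJ_le hJ' ω)
  · rw [norm_zero]

theorem sum_rC (J : List (Un n b)) (j : ℕ) (E : Finset (ZMod (2 ^ (n + b - j))))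
    (r : ZMod (2 ^ (n + b))) : ∑ i, rC J j E r i = phiJ J j E := by
  classical
  unfold rC phiJ
  rw [sum_comm]
  refine sum_congr rfl fun ω _ => ?_
  by_cases h : rd n b j (RJ J ω) ∈ E
  · simp only [h, true_and, if_true]
    rw [sum_ite_eq univ (em (n + b) j (rd n b j r + rd n b j (RJ J ω))) fun _ =>
      (wtJ J ω : ℂ) * ccJ J ω, if_pos (mem_univ _)]
  · simp only [h, false_and, if_false, sum_const_zero]

theorem sum_wE (J : List (Un n b)) (j : ℕ) (E : Finset (ZMod (2 ^ (n + b - j))))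
    (r : ZMod (2 ^ (n + b))) : ∑ i, wE J j E r i = ∑ s ∈ E, pj J j s := by
  classical
  unfold wE
  simp only [pj_eq]
  rw [sum_comm]
  conv_rhs => rw [sum_comm]
  refine sum_congr rfl fun ω _ => ?_
  rw [sum_ite_eq E (rd n b j (RJ J ω)) fun _ => wtJ J ω]
  by_cases h : rd n b j (RJ J ω) ∈ E
  · simp only [h, true_and, if_true]
    rw [sum_ite_eq univ (em (n + b) j (rd n b j r + rd n b j (RJ J ω))) fun _ => wtJ J ω,
      if_pos (mem_univ _)]
  · simp only [h, false_and, if_false, sum_const_zero]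

theorem sum_wE_le {J : List (Un n b)} (hJ : ∀ k ∈ J, IsProb k.P) (j : ℕ)
    (E : Finset (ZMod (2 ^ (n + b - j)))) (r : ZMod (2 ^ (n + b))) :
    ∑ i, wE J j E r i ≤ 1 := by
  rw [sum_wE, ← sum_pj hJ j]
  exact sum_le_sum_of_subset_of_nonneg (subset_univ _) fun s _ _ => pj_nonneg hJ j s

/-- T2, raw form -/
theorem rS_rep {J : List (Un n b)} (hJ : ∀ k ∈ J, IsProb k.P) (hJ' : ∀ k ∈ J, IsProb k.ρ)
    {j : ℕ} (E : Finset (ZMod (2 ^ (n + b - j))))
    {j' a' : ℕ} (hjj : j ≤ j') (hj' : j' ≤ n) (r i : ZMod (2 ^ (n + b))) {x y : ℕ}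
    (hx : x ∈ nd n j' a') (hy : y ∈ nd n j' a') :
    ‖(∑ q : QJ J, rS J j E r i q x * (kerJ J y q : ℂ) * ch n b (-(i * y))) -
      rC J j E r i * ch n b (-(r * y))‖ ≤
      4 * Real.pi / 2 ^ b / 2 ^ (j' - j) * wE J j E r i := by
  classical
  have hj : j ≤ n := hjj.trans hj'
  have hxy : |(y : ℝ) - x| ≤ 2 ^ (n - j') := by
    unfold nd at hx hy
    rw [mem_Ico, add_mul, one_mul] at hx hy
    have h1 : (y : ℤ) - x ≤ 2 ^ (n - j') := by
      have := hx.1; have := hy.2; zify at *; linarith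
    have h2 : (x : ℤ) - y ≤ 2 ^ (n - j') := by
      have := hy.1; have := hx.2; zify at *; linarith
    rw [abs_le]
    constructor
    · have : ((x : ℤ) : ℝ) - y ≤ 2 ^ (n - j') := by exact_mod_cast h2
      push_cast at this; linarith
    · have : ((y : ℤ) : ℝ) - x ≤ 2 ^ (n - j') := by exact_mod_cast h1
      push_cast at this; linarith
  have hdl : ∀ ω : QJ J, ‖e (dl j r (RJ J ω) * (y - x)) - 1‖ ≤
      4 * Real.pi / 2 ^ b / 2 ^ (j' - j) := by
    intro ω
    refine (norm_e_sub_one_le _).trans ?_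
    rw [abs_mul, abs_of_nonneg (dl_nonneg j _ _)]
    have h1 := dl_mul_le (n := n) (b := b) hj r (RJ J ω)
    push_cast at h1
    have h2 : (2 : ℝ) ^ (n - j) = 2 ^ (n - j') * 2 ^ (j' - j) := by
      rw [← pow_add]; congr 1; omega
    rw [h2] at h1
    have h3 : dl j r (RJ J ω) * |(y : ℝ) - x| ≤ 2 / 2 ^ b / 2 ^ (j' - j) := by
      rw [le_div_iff₀ (by positivity)]
      refine le_trans ?_ h1
      rw [mul_assoc]
      refine mul_le_mul_of_nonneg_left ?_ (dl_nonneg j _ _)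
      exact mul_le_mul_of_nonneg_right hxy (by positivity)
    calc 2 * Real.pi * (dl j r (RJ J ω) * |(y : ℝ) - x|)
        ≤ 2 * Real.pi * (2 / 2 ^ b / 2 ^ (j' - j)) :=
          mul_le_mul_of_nonneg_left h3 (by positivity)
      _ = _ := by ring
  have hmain : (∑ q : QJ J, rS J j E r i q x * (kerJ J y q : ℂ) * ch n b (-(i * y))) -
      rC J j E r i * ch n b (-(r * y)) =
      ∑ ω : QJ J, if rd n b j (RJ J ω) ∈ E ∧
        em (n + b) j (rd n b j r + rd n b j (RJ J ω)) = i then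
        (wtJ J ω : ℂ) * ccJ J ω * ch n b (-(r * y)) *
          (e (dl j r (RJ J ω) * (y - x)) - 1) else 0 := by
    have h1 : (∑ q : QJ J, rS J j E r i q x * (kerJ J y q : ℂ) * ch n b (-(i * y))) =
        ∑ ω : QJ J, if rd n b j (RJ J ω) ∈ E ∧
        em (n + b) j (rd n b j r + rd n b j (RJ J ω)) = i then
        (wtJ J ω : ℂ) * ((∑ q : QJ J, (kerJ J y q : ℂ) * psiJ J ω q) *
          (e (-dl j r (RJ J ω) * x) * ch n b (-(i * y)))) else 0 := by
      unfold rS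
      simp only [mul_assoc, sum_mul]
      rw [sum_comm]
      refine sum_congr rfl fun ω _ => ?_
      split_ifs
      · rw [mul_sum]
        exact sum_congr rfl fun q _ => by ring
      · simp
    rw [h1]
    unfold rC
    rw [sum_mul, ← sum_sub_distrib]
    refine sum_congr rfl fun ω _ => ?_
    split_ifs with h
    · have h2 := ch_split (hj.trans (Nat.le_add_right n b)) r (RJ J ω) y
      rw [h.2] at h2
      have h3 : e (-dl j r (RJ J ω) * x) =
          e (-dl j r (RJ J ω) * y) * e (dl j r (RJ J ω) * (y - x)) := by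
        rw [← e_add]; congr 1; ring
      rw [sum_psi_ker, h3, h2]
      ring
    · simp
  rw [hmain]
  unfold wE
  rw [mul_sum]
  refine (norm_sum_le _ _).trans (sum_le_sum fun ω _ => ?_)
  split_ifs
  · rw [norm_mul, norm_mul, norm_mul, norm_ch, mul_one, Complex.norm_real,
      Real.norm_of_nonneg (wtJ_nonneg hJ ω)]
    have h6 := norm_ccJ_le hJ' ω
    have h7 := wtJ_nonneg hJ ω
    have h8 := hdl ω
    calc wtJ J ω * ‖ccJ J ω‖ * ‖e (dl j r (RJ J ω) * (y - x)) - 1‖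
        ≤ wtJ J ω * 1 * (4 * Real.pi / 2 ^ b / 2 ^ (j' - j)) :=
          mul_le_mul (mul_le_mul_of_nonneg_left h6 h7) h8 (norm_nonneg _) (by linarith)
      _ = _ := by ring
  · rw [norm_zero, mul_zero]

/-! ## normalised -/

/-- field `s` -/
def sS (J : List (Un n b)) (j : ℕ) (E : Finset (ZMod (2 ^ (n + b - j)))) (r i : ZMod (2 ^ (n + b)))
    (q : QJ J) (x : ℕ) : ℂ := rS J j E r i q x / (wE J j E r i : ℂ)

/-- field `c` -/
def cS (J : List (Un n b)) (j : ℕ) (E : Finset (ZMod (2 ^ (n + b - j))))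
    (r i : ZMod (2 ^ (n + b))) : ℂ := rC J j E r i / (wE J j E r i : ℂ)

private theorem div_le_one' {z : ℂ} {w : ℝ} (hw : 0 ≤ w) (h : ‖z‖ ≤ w) : ‖z / (w : ℂ)‖ ≤ 1 := by
  rw [norm_div, Complex.norm_real, Real.norm_of_nonneg hw]
  exact div_le_one_of_le₀ h hw

/-- `s1` -/
theorem norm_sS_le {J : List (Un n b)} (hJ : ∀ k ∈ J, IsProb k.P) (j : ℕ)
    (E : Finset (ZMod (2 ^ (n + b - j)))) (r i : ZMod (2 ^ (n + b))) (q : QJ J) (x : ℕ) :
    ‖sS J j E r i q x‖ ≤ 1 := div_le_one' (wE_nonneg hJ j E r i) (norm_rS_le hJ j E r i q x)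

/-- `c1` -/
theorem norm_cS_le {J : List (Un n b)} (hJ : ∀ k ∈ J, IsProb k.P) (hJ' : ∀ k ∈ J, IsProb k.ρ)
    (j : ℕ) (E : Finset (ZMod (2 ^ (n + b - j)))) (r i : ZMod (2 ^ (n + b))) :
    ‖cS J j E r i‖ ≤ 1 := div_le_one' (wE_nonneg hJ j E r i) (norm_rC_le hJ hJ' j E r i)

theorem wE_mul_cS {J : List (Un n b)} (hJ : ∀ k ∈ J, IsProb k.P) (hJ' : ∀ k ∈ J, IsProb k.ρ)
    (j : ℕ) (E : Finset (ZMod (2 ^ (n + b - j)))) (r i : ZMod (2 ^ (n + b))) :
    (wE J j E r i : ℂ) * cS J j E r i = rC J j E r i := by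
  unfold cS
  rcases eq_or_ne (wE J j E r i) 0 with h | h
  · have h1 := norm_rC_le hJ hJ' j E r i
    rw [h] at h1 ⊢
    have h2 : rC J j E r i = 0 := norm_le_zero_iff.mp h1
    rw [h2]; simp
  · have h' : (wE J j E r i : ℂ) ≠ 0 := by exact_mod_cast h
    field_simp

theorem wE_mul_sS {J : List (Un n b)} (hJ : ∀ k ∈ J, IsProb k.P)
    (j : ℕ) (E : Finset (ZMod (2 ^ (n + b - j)))) (r i : ZMod (2 ^ (n + b))) (q : QJ J) (x : ℕ) :
    (wE J j E r i : ℂ) * sS J j E r i q x = rS J j E r i q x := by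
  unfold sS
  rcases eq_or_ne (wE J j E r i) 0 with h | h
  · have h1 := norm_rS_le hJ j E r i q x
    rw [h] at h1 ⊢
    have h2 : rS J j E r i q x = 0 := norm_le_zero_iff.mp h1
    rw [h2]; simp
  · have h' : (wE J j E r i : ℂ) ≠ 0 := by exact_mod_cast h
    field_simp

/-- `ph` -/
theorem sum_wE_cS {J : List (Un n b)} (hJ : ∀ k ∈ J, IsProb k.P) (hJ' : ∀ k ∈ J, IsProb k.ρ)
    (j : ℕ) (E : Finset (ZMod (2 ^ (n + b - j)))) (r : ZMod (2 ^ (n + b))) :
    ∑ i, (wE J j E r i : ℂ) * cS J j E r i = phiJ J j E := by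
  rw [← sum_rC J j E r]
  exact sum_congr rfl fun i _ => wE_mul_cS hJ hJ' j E r i

/-- `T2` -/
theorem sS_rep {J : List (Un n b)} (hJ : ∀ k ∈ J, IsProb k.P) (hJ' : ∀ k ∈ J, IsProb k.ρ)
    {j : ℕ} (E : Finset (ZMod (2 ^ (n + b - j))))
    {j' a' : ℕ} (hjj : j ≤ j') (hj' : j' ≤ n) (r i : ZMod (2 ^ (n + b))) {x y : ℕ}
    (hx : x ∈ nd n j' a') (hy : y ∈ nd n j' a') :
    ‖(∑ q : QJ J, sS J j E r i q x * (kerJ J y q : ℂ) * ch n b (-(i * y))) -
      cS J j E r i * ch n b (-(r * y))‖ ≤ 4 * Real.pi / 2 ^ b / 2 ^ (j' - j) := by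
  have h1 := rS_rep hJ hJ' E hjj hj' r i hx hy
  have h2 : (∑ q : QJ J, sS J j E r i q x * (kerJ J y q : ℂ) * ch n b (-(i * y))) -
      cS J j E r i * ch n b (-(r * y)) =
      ((∑ q : QJ J, rS J j E r i q x * (kerJ J y q : ℂ) * ch n b (-(i * y))) -
      rC J j E r i * ch n b (-(r * y))) / (wE J j E r i : ℂ) := by
    unfold sS cS
    rw [sub_div, sum_div]
    congr 1
    · exact sum_congr rfl fun q _ => by ring
    · ring
  rw [h2, norm_div, Complex.norm_real, Real.norm_of_nonneg (wE_nonneg hJ j E r i)]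
  exact div_le_of_le_mul₀ (wE_nonneg hJ j E r i) (by positivity) h1

/-- the weights of `Repz` are the general ones -/
theorem wz_eq_wE {C1 D : ℝ} {ι : Type} [Fintype ι] (d : ZData C1 D n b ι) (J : List (Un n b))
    (θ : ℝ) (j a : ℕ) (k : ι) (i : ZMod (2 ^ (n + b))) :
    wz d J θ j a k i = wE J j (EZ d J θ j a k) (d.r k) i := rfl

end

end Vale.Agent.P091.T.H120
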