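import Vale.Agent.P091.T.H120.DatB
import Vale.Agent.P091.T.H43.DZ

/-! # P091, E1-D, route B, item (b): `pi0`, `pi1`, `P0`, `P1`, `s1`, `c1`, `ph1`, `T2`, `err0` of
43's `DZ` -/

set_option autoImplicit false

open Finset

namespace Vale.Agent.P091.T.H120

open Vale.Agent.P091.Spec (e nd avC av)
open Vale.Agent.P065.Ent
open Vale.Agent.P091.H413 Vale.Agent.P091.T.H350
open Vale.Agent.P091.T.H522 (em lo)

noncomputable section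

variable {n b : ℕ} {C1 D : ℝ} {ι : Type} [Fintype ι]
  {d : ZData C1 D n b ι} {A : ℝ} {J : List (Un n b)} {j0 a0 : ℕ} {Y : Finset ℕ}
  {W : ℕ → ℕ → Finset ℕ} {t : ℕ}

/-- `pi0` -/
theorem DZ_pi0 (hJ : ∀ k ∈ J, IsProb k.P) (w : Node) (κ : ι) (i : ZMod (2 ^ (n + b))) :
    0 ≤ (H43.DZ d A J j0 a0 Y W t).pi w κ i := fpi_nonneg hJ t w κ i

/-- `pi1` -/
theorem DZ_pi1 (hJ : ∀ k ∈ J, IsProb k.P) (w : Node) (κ : ι) :
    ∑ i, (H43.DZ d A J j0 a0 Y W t).pi w κ i ≤ 1 := sum_fpi_le hJ t w κ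

/-- `P0` -/
theorem DZ_P0 (hJ' : ∀ k ∈ J, IsProb k.ρ) (q : QJ J) (x : Node) :
    0 ≤ (H43.DZ d A J j0 a0 Y W t).P q x := kerJ_nonneg hJ' _ _

/-- `P1` -/
theorem DZ_P1 (hJ' : ∀ k ∈ J, IsProb k.ρ) (x : Node) :
    ∑ q, (H43.DZ d A J j0 a0 Y W t).P q x = 1 := sum_kerJ hJ' _

/-- `e1` -/
theorem DZ_e1 (κ : ι) (x : Node) : ‖(H43.DZ d A J j0 a0 Y W t).e κ x‖ ≤ 1 := (norm_ch _).le

/-- `E1` -/
theorem DZ_E1 (i : ZMod (2 ^ (n + b))) (x : Node) : ‖(H43.DZ d A J j0 a0 Y W t).E i x‖ ≤ 1 :=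
  (norm_ch _).le

/-- `s1` -/
theorem DZ_s1 (hJ : ∀ k ∈ J, IsProb k.P) (w : Node) (κ : ι) (i : ZMod (2 ^ (n + b))) (x : Node)
    (q : QJ J) : ‖(H43.DZ d A J j0 a0 Y W t).s w κ i x q‖ ≤ 1 := norm_fs_le hJ t w κ i x q

/-- `c1` -/
theorem DZ_c1 (hJ : ∀ k ∈ J, IsProb k.P) (hJ' : ∀ k ∈ J, IsProb k.ρ) (w : Node) (κ : ι)
    (i : ZMod (2 ^ (n + b))) : ‖(H43.DZ d A J j0 a0 Y W t).c w κ i‖ ≤ 1 :=
  norm_fc_le hJ hJ' t w κ i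

theorem DZ_ph (hJ : ∀ k ∈ J, IsProb k.P) (hJ' : ∀ k ∈ J, IsProb k.ρ) (w : Node) (κ : ι) :
    (H43.DZ d A J j0 a0 Y W t).ph w κ =
      phiJ J (j0 + w.length) (ES d A J j0 a0 t w κ) := ph_eq hJ hJ' t w κ

/-- `ph1` -/
theorem DZ_ph1 (hJ : ∀ k ∈ J, IsProb k.P) (hJ' : ∀ k ∈ J, IsProb k.ρ)
    (hφ : PhiGe d A J j0 a0) (κ : ι) (v w : Node)
    (h : (H43.DZ d A J j0 a0 Y W t).st κ v = some w) :
    1 / 4 ≤ ‖(H43.DZ d A J j0 a0 Y W t).ph w κ‖ :=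
  ph_ge hJ hJ' hφ (H43.stZ_some (H233.pdZ d A J j0 a0) h).2.2.2

/-- `err0` -/
theorem DZ_err0 (κ : ι) (v : Node) : 0 ≤ (H43.DZ d A J j0 a0 Y W t).err κ v := by
  show 0 ≤ (match H43.stZ (H233.pdZ d A J j0 a0) t κ v with
    | none => (0 : ℝ)
    | some w => 4 * Real.pi / 2 ^ b / 2 ^ (v.length - w.length))
  split <;> positivity

theorem DZ_err {κ : ι} {v w : Node} (h : (H43.DZ d A J j0 a0 Y W t).st κ v = some w) :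
    (H43.DZ d A J j0 a0 Y W t).err κ v = 4 * Real.pi / 2 ^ b / 2 ^ (v.length - w.length) := by
  have h' : H43.stZ (H233.pdZ d A J j0 a0) t κ v = some w := h
  show (match H43.stZ (H233.pdZ d A J j0 a0) t κ v with
    | none => (0 : ℝ)
    | some w => 4 * Real.pi / 2 ^ b / 2 ^ (v.length - w.length)) = _
  rw [h']

/-- `T2` -/
theorem DZ_T2 (hj0 : j0 ≤ n) (hJ : ∀ k ∈ J, IsProb k.P) (hJ' : ∀ k ∈ J, IsProb k.ρ) (κ : ι)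
    (v w : Node) (h : (H43.DZ d A J j0 a0 Y W t).st κ v = some w) (i : ZMod (2 ^ (n + b)))
    (x y : Node) (hx : x.length = (H43.DZ d A J j0 a0 Y W t).n) (hvx : v <:+ x)
    (hy : y.length = (H43.DZ d A J j0 a0 Y W t).n) (hvy : v <:+ y) :
    ‖∑ q, (H43.DZ d A J j0 a0 Y W t).s w κ i x q * ((H43.DZ d A J j0 a0 Y W t).P q y : ℂ) *
        (H43.DZ d A J j0 a0 Y W t).E i y -
      (H43.DZ d A J j0 a0 Y W t).c w κ i * (H43.DZ d A J j0 a0 Y W t).e κ y‖ ≤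
      (H43.DZ d A J j0 a0 Y W t).err κ v := by
  rw [DZ_err h]
  have hx' : x.length = n - j0 := hx
  have hy' : y.length = n - j0 := hy
  exact fT2 hJ hJ' t κ (H43.stZ_some (H233.pdZ d A J j0 a0) h).2.1 i (by omega) hvx
    (by omega) hvy

end

end Vale.Agent.P091.T.H120
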