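import Mathlib

/-! # P091, row T2: the exact identity (G1) for a finite list of units, pointwise in the letters

Units `k : ι`; `G k` the finite abelian group of the node of the unit, `ρ k` the noise on `G k`,
`P k` a probability on a finite set `Ω k` of letters, `s k : Ω k → AddChar (G k) ℂ`. -/

open Finset

namespace Vale.Agent.P091.T.H120

noncomputable section

variable {ι : Type*} [Fintype ι] [DecidableEq ι]
variable {G : ι → Type*} [∀ k, AddCommGroup (G k)] [∀ k, Fintype (G k)]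
variable {Ω : ι → Type*} [∀ k, Fintype (Ω k)]

/-- the kernel of the values `q = (y_k + t_k)_k` -/
def ker (ρ : ∀ k, G k → ℝ) (y q : ∀ k, G k) : ℝ := ∏ k, ρ k (q k - y k)

/-- the weight of a list of letters -/
def wt (P : ∀ k, Ω k → ℝ) (ω : ∀ k, Ω k) : ℝ := ∏ k, P k (ω k)

/-- `∏ s_k(q_k)` -/
def psi (s : ∀ k, Ω k → AddChar (G k) ℂ) (ω : ∀ k, Ω k) (q : ∀ k, G k) : ℂ :=
  ∏ k, s k (ω k) (q k)

/-- `c(ω) = ∏ ρ̂_k(s_k)` -/
def cc (ρ : ∀ k, G k → ℝ) (s : ∀ k, Ω k → AddChar (G k) ℂ) (ω : ∀ k, Ω k) : ℂ :=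
  ∏ k, ∑ t, (ρ k t : ℂ) * s k (ω k) t

omit [DecidableEq ι] [∀ k, Fintype (G k)] in
theorem ker_nonneg {ρ : ∀ k, G k → ℝ} (hρ : ∀ k t, 0 ≤ ρ k t) (y q : ∀ k, G k) :
    0 ≤ ker ρ y q := prod_nonneg fun k _ => hρ k _

theorem sum_ker {ρ : ∀ k, G k → ℝ} (hρ : ∀ k, ∑ t, ρ k t = 1) (y : ∀ k, G k) :
    ∑ q, ker ρ y q = 1 := by
  classical
  unfold ker
  rw [← Fintype.prod_sum (fun k q => ρ k (q - y k))]
  refine prod_eq_one fun k _ => ?_
  rw [← hρ k]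
  exact Fintype.sum_equiv (Equiv.subRight (y k)) _ _ fun q => rfl

omit [DecidableEq ι] [∀ k, Fintype (Ω k)] in
theorem norm_psi (s : ∀ k, Ω k → AddChar (G k) ℂ) (ω : ∀ k, Ω k) (q : ∀ k, G k) :
    ‖psi s ω q‖ = 1 := by
  unfold psi
  rw [norm_prod]
  exact prod_eq_one fun k _ => AddChar.norm_apply _ _

omit [DecidableEq ι] [∀ k, Fintype (Ω k)] in
theorem norm_cc_le {ρ : ∀ k, G k → ℝ} (h0 : ∀ k t, 0 ≤ ρ k t) (h1 : ∀ k, ∑ t, ρ k t = 1)
    (s : ∀ k, Ω k → AddChar (G k) ℂ) (ω : ∀ k, Ω k) : ‖cc ρ s ω‖ ≤ 1 := by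
  unfold cc
  rw [norm_prod]
  refine prod_le_one (fun k _ => norm_nonneg _) fun k _ => ?_
  refine (norm_sum_le _ _).trans ?_
  rw [← h1 k]
  refine sum_le_sum fun t _ => ?_
  rw [norm_mul, AddChar.norm_apply, mul_one, Complex.norm_real, Real.norm_of_nonneg (h0 k t)]

omit [∀ k, Fintype (Ω k)] in
/-- **(G1)** for every `y` and every list of letters. -/
theorem g1_id (ρ : ∀ k, G k → ℝ) (s : ∀ k, Ω k → AddChar (G k) ℂ) (ω : ∀ k, Ω k)
    (y : ∀ k, G k) :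
    ∑ q, (ker ρ y q : ℂ) * psi s ω q = psi s ω y * cc ρ s ω := by
  classical
  unfold ker psi cc
  have h1 : ∀ q : ∀ k, G k, ((∏ k, ρ k (q k - y k) : ℝ) : ℂ) * ∏ k, s k (ω k) (q k) =
      ∏ k, ((ρ k (q k - y k) : ℝ) : ℂ) * s k (ω k) (q k) := by
    intro q
    rw [Complex.ofReal_prod, ← prod_mul_distrib]
  rw [sum_congr rfl fun q _ => h1 q,
    ← Fintype.prod_sum (fun k q => ((ρ k (q - y k) : ℝ) : ℂ) * s k (ω k) q), ← prod_mul_distrib]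
  refine prod_congr rfl fun k _ => ?_
  rw [mul_sum]
  refine Fintype.sum_equiv (Equiv.subRight (y k)) _ _ fun q => ?_
  rw [Equiv.subRight_apply]
  have h2 : s k (ω k) q = s k (ω k) (y k) * s k (ω k) (q - y k) := by
    rw [← AddChar.map_add_eq_mul, add_sub_cancel]
  rw [h2]; ring

/-- the total weight of the letters is one -/
theorem sum_wt {P : ∀ k, Ω k → ℝ} (hP : ∀ k, ∑ w, P k w = 1) : ∑ ω, wt P ω = 1 := by
  classical
  unfold wt
  rw [← Fintype.prod_sum (fun k w => P k w)]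
  exact prod_eq_one fun k _ => hP k

omit [DecidableEq ι] [∀ k, Fintype (Ω k)] in
theorem wt_nonneg {P : ∀ k, Ω k → ℝ} (hP : ∀ k w, 0 ≤ P k w) (ω : ∀ k, Ω k) : 0 ≤ wt P ω :=
  prod_nonneg fun k _ => hP k _

/-- `Σ π c` factorises -/
theorem sum_wt_cc (P : ∀ k, Ω k → ℝ) (ρ : ∀ k, G k → ℝ) (s : ∀ k, Ω k → AddChar (G k) ℂ) :
    ∑ ω, (wt P ω : ℂ) * cc ρ s ω =
      ∏ k, ∑ w, ∑ t, ((P k w * ρ k t : ℝ) : ℂ) * s k w t := by
  classical
  unfold wt cc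
  have h1 : ∀ ω : ∀ k, Ω k, ((∏ k, P k (ω k) : ℝ) : ℂ) * ∏ k, ∑ t, (ρ k t : ℂ) * s k (ω k) t =
      ∏ k, ∑ t, ((P k (ω k) * ρ k t : ℝ) : ℂ) * s k (ω k) t := by
    intro ω
    rw [Complex.ofReal_prod, ← prod_mul_distrib]
    refine prod_congr rfl fun k _ => ?_
    rw [mul_sum]
    refine sum_congr rfl fun t _ => ?_
    push_cast; ring
  rw [sum_congr rfl fun ω _ => h1 ω,
    ← Fintype.prod_sum (fun k w => ∑ t, ((P k w * ρ k t : ℝ) : ℂ) * s k w t)]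

end

end Vale.Agent.P091.T.H120
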