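import Vale.Agent.P091.T.H120.G1
import Vale.Agent.P091.H74.Spec

/-! # P091, row T2, second half: the real part of `Σ π c`, the integer instance, rounding -/

open Finset

namespace Vale.Agent.P091.T.H120

open Vale.Agent.P091.Spec (e)

noncomputable section

section marg

variable {ι : Type*} [Fintype ι] [DecidableEq ι] {α : ι → Type*} [∀ k, Fintype (α k)]

/-- marginals of a product law -/
theorem sum_prod_marg {p : ∀ k, α k → ℝ} (hp : ∀ k, ∑ a, p k a = 1) (k : ι) (f : α k → ℝ) :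
    ∑ a : ∀ j, α j, (∏ j, p j (a j)) * f (a k) = ∑ b, p k b * f b := by
  classical
  set g : ∀ j, α j → ℝ := Function.update (fun j (_ : α j) => (1 : ℝ)) k f with hg
  have hgk : g k = f := Function.update_self _ _ _
  have hgj : ∀ j, j ≠ k → g j = fun _ => 1 := fun j hj => Function.update_of_ne hj _ _
  have h1 : ∀ a : ∀ j, α j, (∏ j, p j (a j)) * f (a k) = ∏ j, p j (a j) * g j (a j) := by
    intro a
    rw [prod_mul_distrib]
    congr 1
    rw [prod_eq_single k (fun j _ hj => by rw [hgj j hj]) (fun h => absurd (mem_univ k) h), hgk]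
  rw [sum_congr rfl fun a _ => h1 a, ← Fintype.prod_sum (fun j a => p j a * g j a)]
  rw [prod_eq_single k (fun j _ hj => by rw [hgj j hj]; simpa using hp j)
    (fun h => absurd (mem_univ k) h), hgk]

/-- for unimodular `X_k`: `1 - Re ∏ E X_k ≤ (|ι|/2) Σ_k E |1 - X_k|²` -/
theorem one_sub_re_prod_le {p : ∀ k, α k → ℝ} (h0 : ∀ k a, 0 ≤ p k a) (hp : ∀ k, ∑ a, p k a = 1)
    (X : ∀ k, α k → ℂ) (hX : ∀ k a, ‖X k a‖ = 1) :
    1 - (Fintype.card ι : ℝ) / 2 * ∑ k, ∑ a, p k a * ‖1 - X k a‖ ^ 2 ≤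
      (∏ k, ∑ a, (p k a : ℂ) * X k a).re := by
  classical
  have hexp : ∏ k, ∑ a, (p k a : ℂ) * X k a =
      ∑ a : ∀ k, α k, ((∏ k, p k (a k) : ℝ) : ℂ) * ∏ k, X k (a k) := by
    rw [Fintype.prod_sum (fun k a => (p k a : ℂ) * X k a)]
    refine sum_congr rfl fun a _ => ?_
    rw [Complex.ofReal_prod, ← prod_mul_distrib]
  have hone : ∑ a : ∀ k, α k, ∏ k, p k (a k) = 1 := by
    rw [← Fintype.prod_sum (fun k a => p k a)]
    exact prod_eq_one fun k _ => hp k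
  -- telescoping `‖1 - ∏ X‖ ≤ Σ ‖1 - X‖`
  have htel : ∀ (s : Finset ι) (x : ι → ℂ), (∀ k, ‖x k‖ = 1) →
      ‖1 - ∏ k ∈ s, x k‖ ≤ ∑ k ∈ s, ‖1 - x k‖ := by
    intro s x hx
    induction s using Finset.induction_on with
    | empty => simp
    | insert k s hk ih =>
      rw [prod_insert hk, sum_insert hk]
      have : 1 - x k * ∏ j ∈ s, x j = (1 - x k) + x k * (1 - ∏ j ∈ s, x j) := by ring
      rw [this]
      refine (norm_add_le _ _).trans ?_
      rw [norm_mul, hx k, one_mul]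
      linarith
  have hpt : ∀ a : ∀ k, α k, 1 - (Fintype.card ι : ℝ) / 2 * ∑ k, ‖1 - X k (a k)‖ ^ 2 ≤
      (∏ k, X k (a k)).re := by
    intro a
    have hn : ‖∏ k, X k (a k)‖ = 1 := by
      rw [norm_prod]; exact prod_eq_one fun k _ => hX k _
    have h1 : ‖1 - ∏ k, X k (a k)‖ ^ 2 = 2 - 2 * (∏ k, X k (a k)).re := by
      have h2 := Complex.sq_norm_sub_sq_re (1 - ∏ k, X k (a k))
      have h3 := Complex.sq_norm_sub_sq_re (∏ k, X k (a k))
      rw [hn] at h3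
      simp only [Complex.sub_re, Complex.one_re, Complex.sub_im, Complex.one_im] at h2
      nlinarith
    have h2 := htel univ (fun k => X k (a k)) (fun k => hX k _)
    have h3 : (∑ k, ‖1 - X k (a k)‖) ^ 2 ≤
        (Fintype.card ι : ℝ) * ∑ k, ‖1 - X k (a k)‖ ^ 2 := by
      have := sq_sum_le_card_mul_sum_sq (s := (univ : Finset ι)) (f := fun k => ‖1 - X k (a k)‖)
      simpa [card_univ] using this
    have h4 : ‖1 - ∏ k, X k (a k)‖ ^ 2 ≤ (∑ k, ‖1 - X k (a k)‖) ^ 2 :=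
      pow_le_pow_left₀ (norm_nonneg _) h2 2
    nlinarith
  have hmarg : ∑ a : ∀ k, α k, (∏ k, p k (a k)) * ∑ k, ‖1 - X k (a k)‖ ^ 2 =
      ∑ k, ∑ b, p k b * ‖1 - X k b‖ ^ 2 := by
    rw [sum_congr rfl fun a _ => mul_sum _ _ _, sum_comm]
    exact sum_congr rfl fun k _ => sum_prod_marg hp k fun b => ‖1 - X k b‖ ^ 2
  rw [hexp, Complex.re_sum, ← hmarg]
  calc 1 - (Fintype.card ι : ℝ) / 2 * ∑ a : ∀ k, α k, (∏ k, p k (a k)) *
        ∑ k, ‖1 - X k (a k)‖ ^ 2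
      = ∑ a : ∀ k, α k, (∏ k, p k (a k)) *
        (1 - (Fintype.card ι : ℝ) / 2 * ∑ k, ‖1 - X k (a k)‖ ^ 2) := by
        rw [mul_sum]
        conv_lhs => rw [← hone]
        rw [← sum_sub_distrib]
        exact sum_congr rfl fun a _ => by ring
    _ ≤ ∑ a : ∀ k, α k, (((∏ k, p k (a k) : ℝ) : ℂ) * ∏ k, X k (a k)).re := by
        refine sum_le_sum fun a _ => ?_
        rw [Complex.re_ofReal_mul]
        exact mul_le_mul_of_nonneg_left (hpt a) (prod_nonneg fun k _ => h0 k _)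

end marg

section unit

variable {ι : Type*} [Fintype ι] [DecidableEq ι]
variable {G : ι → Type*} [∀ k, AddCommGroup (G k)] [∀ k, Fintype (G k)]
variable {Ω : ι → Type*} [∀ k, Fintype (Ω k)]

/-- **(G1), the real part**: `Σ π Re c ≥ 1 - |ι| Σ κ / 2` -/
theorem g1_re {P : ∀ k, Ω k → ℝ} {ρ : ∀ k, G k → ℝ} (s : ∀ k, Ω k → AddChar (G k) ℂ)
    (hP0 : ∀ k w, 0 ≤ P k w) (hP : ∀ k, ∑ w, P k w = 1)
    (hρ0 : ∀ k t, 0 ≤ ρ k t) (hρ : ∀ k, ∑ t, ρ k t = 1) {κ : ι → ℝ}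
    (hκ : ∀ k, ∑ w, ∑ t, P k w * ρ k t * ‖1 - s k w t‖ ^ 2 ≤ κ k) :
    1 - (Fintype.card ι : ℝ) / 2 * ∑ k, κ k ≤ ∑ ω, wt P ω * (cc ρ s ω).re := by
  classical
  have h1 := one_sub_re_prod_le (α := fun k => Ω k × G k) (p := fun k a => P k a.1 * ρ k a.2)
    (fun k a => mul_nonneg (hP0 k _) (hρ0 k _))
    (fun k => by
      rw [Fintype.sum_prod_type]
      simp only [← mul_sum, hρ k, mul_one, hP k])
    (fun k a => s k a.1 a.2) (fun k a => AddChar.norm_apply _ _)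
  have h2 : ∀ k, ∑ a : Ω k × G k, P k a.1 * ρ k a.2 * ‖1 - s k a.1 a.2‖ ^ 2 ≤ κ k := by
    intro k
    rw [Fintype.sum_prod_type]
    exact hκ k
  have h3 : ∏ k, ∑ a : Ω k × G k, ((P k a.1 * ρ k a.2 : ℝ) : ℂ) * s k a.1 a.2 =
      ∑ ω, (wt P ω : ℂ) * cc ρ s ω := by
    rw [sum_wt_cc]
    exact prod_congr rfl fun k _ => Fintype.sum_prod_type _
  rw [h3, Complex.re_sum] at h1
  refine le_trans ?_ (h1.trans (le_of_eq (sum_congr rfl fun ω _ => Complex.re_ofReal_mul _ _)))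
  have h4 : ∑ k, ∑ a : Ω k × G k, P k a.1 * ρ k a.2 * ‖1 - s k a.1 a.2‖ ^ 2 ≤ ∑ k, κ k :=
    sum_le_sum fun k _ => h2 k
  have h5 : (0 : ℝ) ≤ (Fintype.card ι : ℝ) / 2 := by positivity
  nlinarith

/-- every partial sum: `Re Σ_E π c ≥ π(E) - |ι| Σ κ / 2` -/
theorem g1_part {P : ∀ k, Ω k → ℝ} {ρ : ∀ k, G k → ℝ} (s : ∀ k, Ω k → AddChar (G k) ℂ)
    (hP0 : ∀ k w, 0 ≤ P k w) (hP : ∀ k, ∑ w, P k w = 1)
    (hρ0 : ∀ k t, 0 ≤ ρ k t) (hρ : ∀ k, ∑ t, ρ k t = 1) {κ : ι → ℝ}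
    (hκ : ∀ k, ∑ w, ∑ t, P k w * ρ k t * ‖1 - s k w t‖ ^ 2 ≤ κ k)
    (E : Finset (∀ k, Ω k)) :
    ∑ ω ∈ E, wt P ω - (Fintype.card ι : ℝ) / 2 * ∑ k, κ k ≤
      ∑ ω ∈ E, wt P ω * (cc ρ s ω).re := by
  classical
  have h1 := g1_re s hP0 hP hρ0 hρ hκ
  have hc : ∀ ω, (cc ρ s ω).re ≤ 1 := fun ω =>
    (Complex.re_le_norm _).trans (norm_cc_le hρ0 hρ s ω)
  have h2 : ∑ ω ∈ E, wt P ω * (1 - (cc ρ s ω).re) ≤ ∑ ω, wt P ω * (1 - (cc ρ s ω).re) :=
    sum_le_sum_of_subset_of_nonneg (subset_univ _) fun ω _ _ =>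
      mul_nonneg (wt_nonneg hP0 ω) (by linarith [hc ω])
  have h3 : ∑ ω ∈ E, wt P ω * (1 - (cc ρ s ω).re) =
      ∑ ω ∈ E, wt P ω - ∑ ω ∈ E, wt P ω * (cc ρ s ω).re := by
    rw [← sum_sub_distrib]; exact sum_congr rfl fun ω _ => by ring
  have h4 : ∑ ω, wt P ω * (1 - (cc ρ s ω).re) = 1 - ∑ ω, wt P ω * (cc ρ s ω).re := by
    conv_rhs => rw [← sum_wt (P := P) hP]
    rw [← sum_sub_distrib]; exact sum_congr rfl fun ω _ => by ring
  linarith

end unit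

/-! ### the exponential `e` of the Spec -/

theorem e_add (a b : ℝ) : e (a + b) = e a * e b := by
  unfold e; rw [← Complex.exp_add]; congr 1; push_cast; ring

theorem e_zero : e 0 = 1 := by unfold e; simp

theorem norm_e (a : ℝ) : ‖e a‖ = 1 := by
  unfold e
  rw [show (2 * Real.pi * Complex.I * a : ℂ) = ((2 * Real.pi * a : ℝ) : ℂ) * Complex.I by
    push_cast; ring]
  exact Complex.norm_exp_ofReal_mul_I _

theorem e_neg (a : ℝ) : e (-a) = (starRingEnd ℂ) (e a) := by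
  have h : e (-a) * e a = 1 := by rw [← e_add, neg_add_cancel, e_zero]
  have h2 : (starRingEnd ℂ) (e a) * e a = 1 := by
    rw [mul_comm, Complex.mul_conj, Complex.normSq_eq_norm_sq, norm_e]; simp
  have h3 : e a ≠ 0 := fun h0 => by simpa [h0] using norm_e a
  exact mul_right_cancel₀ h3 (h.trans h2.symm)

theorem e_sum {κ : Type*} (s : Finset κ) (f : κ → ℝ) : e (∑ k ∈ s, f k) = ∏ k ∈ s, e (f k) := by
  classical
  induction s using Finset.induction_on with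
  | empty => simp [e_zero]
  | insert k s hk ih => rw [sum_insert hk, prod_insert hk, e_add, ih]

theorem e_int (m : ℤ) : e m = 1 := by
  unfold e
  rw [show (2 * Real.pi * Complex.I * ((m : ℝ) : ℂ) : ℂ) = (m : ℂ) * (2 * Real.pi * Complex.I) by
    push_cast; ring]
  exact Complex.exp_int_mul_two_pi_mul_I m

theorem norm_e_sub_one_le (a : ℝ) : ‖e a - 1‖ ≤ 2 * Real.pi * |a| := by
  unfold e
  rw [show (2 * Real.pi * Complex.I * a : ℂ) = Complex.I * ((2 * Real.pi * a : ℝ) : ℂ) by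
    push_cast; ring]
  refine (Real.norm_exp_I_mul_ofReal_sub_one_le).trans ?_
  rw [Real.norm_eq_abs, abs_mul, abs_of_pos (by positivity : (0:ℝ) < 2 * Real.pi)]

theorem norm_e_sub_e_le (a b : ℝ) : ‖e a - e b‖ ≤ 2 * Real.pi * |a - b| := by
  have : e a - e b = e b * (e (a - b) - 1) := by
    rw [mul_sub, mul_one, ← e_add]; congr 2; ring
  rw [this, norm_mul, norm_e, one_mul]
  exact norm_e_sub_one_le _

/-! ### letters of `ZMod M` as real numbers -/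

/-- the real frequency of a letter of `ZMod M` -/
def lv {M : ℕ} [NeZero M] (s : AddChar (ZMod M) ℂ) : ℝ :=
  ((AddChar.zmodAddEquiv.symm s).val : ℝ) / M

theorem zmod_apply_int {M : ℕ} [NeZero M] (s : AddChar (ZMod M) ℂ) (y : ℤ) :
    s (y : ZMod M) = e (lv s * y) := by
  obtain ⟨a, rfl⟩ := AddChar.zmodAddEquiv.surjective s
  have ha : ((a.val : ℤ) : ZMod M) = a := by simp
  unfold lv
  rw [AddEquiv.symm_apply_apply]
  conv_lhs => rw [← ha]
  rw [AddChar.zmodAddEquiv_apply]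
  change ((AddChar.zmod M ((a.val : ℤ) : ZMod M) (y : ZMod M) : Circle) : ℂ) = _
  rw [AddChar.zmod_intCast, Circle.coe_exp]
  unfold e
  congr 1
  push_cast
  ring

theorem zmod_apply_nat {M : ℕ} [NeZero M] (s : AddChar (ZMod M) ℂ) (y : ℕ) :
    s (y : ZMod M) = e (lv s * y) := by
  simpa using zmod_apply_int s y

end

end Vale.Agent.P091.T.H120
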