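import Vale.Agent.P091.T.H120.G2

/-! # P091, rows T2 + T1: representation of one letter by the list of a state, exact rounding

`units k : ι`, groups `ZMod (M k)`, letters `s k : Ω k → AddChar (ZMod (M k)) ℂ`; `rv s ω` is the
real frequency of the product of the letters `ω`. -/

open Finset

namespace Vale.Agent.P091.T.H120

open Vale.Agent.P091.Spec (e)

noncomputable section

/-! ### exact rounding -/

/-- the coefficient of the indicator `[s ≤ t]` -/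
def dd (δ : ℝ) (s : ℕ) : ℂ := e (δ * s) - e (δ * ((s : ℝ) - 1))

/-- `e(δ t) = 1 + Σ_{1 ≤ s < m} d_s(δ) [s ≤ t]`, exact for integers `t < m` -/
theorem round_exp (δ : ℝ) {m t : ℕ} (ht : t < m) :
    e (δ * t) = 1 + ∑ s ∈ Ico 1 m, if s ≤ t then dd δ s else 0 := by
  rw [← sum_filter]
  have h1 : (Ico 1 m).filter (fun s => s ≤ t) = Ico 1 (t + 1) := by
    ext s; simp only [mem_filter, mem_Ico]; omega
  rw [h1]
  clear h1 ht
  induction t with
  | zero => simp [e_zero]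
  | succ t ih =>
    rw [sum_Ico_succ_top (by omega), ← add_assoc, ← ih]
    unfold dd
    push_cast
    rw [add_sub_cancel_right]
    ring

theorem norm_dd_le (δ : ℝ) (s : ℕ) : ‖dd δ s‖ ≤ 2 * Real.pi * |δ| := by
  unfold dd
  refine (norm_e_sub_e_le _ _).trans (le_of_eq ?_)
  congr 2; ring

theorem sum_norm_dd_le (δ : ℝ) (m : ℕ) :
    ∑ s ∈ Ico 1 m, ‖dd δ s‖ ≤ 2 * Real.pi * (|δ| * m) := by
  refine (sum_le_sum fun s _ => norm_dd_le δ s).trans ?_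
  rw [sum_const, Nat.card_Ico, nsmul_eq_mul]
  have h1 : ((m - 1 : ℕ) : ℝ) ≤ m := by exact_mod_cast Nat.sub_le m 1
  have h2 : 0 ≤ 2 * Real.pi * |δ| := by positivity
  nlinarith [mul_le_mul_of_nonneg_right h1 h2]

/-! ### the integer instance -/

variable {ι : Type*} [Fintype ι] [DecidableEq ι] {M : ι → ℕ} [∀ k, NeZero (M k)]
variable {Ω : ι → Type*} [∀ k, Fintype (Ω k)]

/-- real frequency of the product of the letters -/
def rv (s : ∀ k, Ω k → AddChar (ZMod (M k)) ℂ) (ω : ∀ k, Ω k) : ℝ := ∑ k, lv (s k (ω k))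

/-- the point `y` in all groups -/
def pt (M : ι → ℕ) (y : ℕ) : ∀ k, ZMod (M k) := fun _ => (y : ZMod _)

omit [DecidableEq ι] [∀ k, Fintype (Ω k)] in
theorem psi_pt (s : ∀ k, Ω k → AddChar (ZMod (M k)) ℂ) (ω : ∀ k, Ω k) (y : ℕ) :
    psi s ω (pt M y) = e (rv s ω * y) := by
  unfold psi rv pt
  rw [sum_mul, e_sum]
  exact prod_congr rfl fun k _ => zmod_apply_nat _ _

omit [∀ k, Fintype (Ω k)] in
theorem g1_int (ρ : ∀ k, ZMod (M k) → ℝ) (s : ∀ k, Ω k → AddChar (ZMod (M k)) ℂ)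
    (ω : ∀ k, Ω k) (y : ℕ) :
    ∑ q, (ker ρ (pt M y) q : ℂ) * psi s ω q = e (rv s ω * y) * cc ρ s ω := by
  rw [g1_id, psi_pt]

omit [∀ k, Fintype (Ω k)] in
/-- **the representation**: for `y` in the node `[y0, y0 + m)`; `kv ω` is the (rounded) letter of
the list, `δ ω = c + rv ω - kv ω` the rounding error. -/
theorem repr (P : ∀ k, Ω k → ℝ) (ρ : ∀ k, ZMod (M k) → ℝ)
    (s : ∀ k, Ω k → AddChar (ZMod (M k)) ℂ) (E : Finset (∀ k, Ω k)) (c : ℝ)
    (kv : (∀ k, Ω k) → ℝ) {y0 m y : ℕ} (h1 : y0 ≤ y) (h2 : y < y0 + m) :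
    (∑ ω ∈ E, (wt P ω : ℂ) * cc ρ s ω) * e (-(c * y)) =
      ∑ ω ∈ E, (wt P ω : ℂ) * e (-((c + rv s ω - kv ω) * y0)) *
        ∑ q, psi s ω q * ((ker ρ (pt M y) q : ℂ) * e (-(kv ω * y)) *
          (1 + ∑ t ∈ Ico 1 m, if y0 + t ≤ y then dd (-(c + rv s ω - kv ω)) t else 0)) := by
  rw [sum_mul]
  refine sum_congr rfl fun ω _ => ?_
  obtain ⟨t, rfl⟩ := Nat.exists_eq_add_of_le h1
  have ht : t < m := by omega
  have h3 : (∑ t' ∈ Ico 1 m, if y0 + t' ≤ y0 + t then dd (-(c + rv s ω - kv ω)) t' else 0) =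
      ∑ t' ∈ Ico 1 m, if t' ≤ t then dd (-(c + rv s ω - kv ω)) t' else 0 :=
    sum_congr rfl fun t' _ => by simp only [Nat.add_le_add_iff_left]
  rw [h3, ← round_exp _ ht]
  have h4 : ∀ q, psi s ω q * ((ker ρ (pt M (y0 + t)) q : ℂ) * e (-(kv ω * ((y0 + t : ℕ) : ℝ))) *
      e (-(c + rv s ω - kv ω) * t)) = ((ker ρ (pt M (y0 + t)) q : ℂ) * psi s ω q) *
      (e (-(kv ω * ((y0 + t : ℕ) : ℝ))) * e (-(c + rv s ω - kv ω) * t)) := fun q => by ring
  rw [sum_congr rfl fun q _ => h4 q, ← sum_mul, g1_int]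
  have h5 : e (-(c * ((y0 + t : ℕ) : ℝ))) = e (-((c + rv s ω - kv ω) * y0)) *
      (e (rv s ω * ((y0 + t : ℕ) : ℝ)) * (e (-(kv ω * ((y0 + t : ℕ) : ℝ))) *
        e (-(c + rv s ω - kv ω) * t))) := by
    rw [← e_add, ← e_add, ← e_add]
    congr 1
    push_cast
    ring
  rw [h5]
  ring

omit [∀ k, Fintype (Ω k)] in
/-- **the main term of one list element** is the bias of the letter `c`, up to the rounding:
`S` is a set of points of the node `[y0, y0 + m)` (with the weight `p`). -/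
theorem round_main {P : ∀ k, Ω k → ℝ} (hP : ∀ k w, 0 ≤ P k w) {ρ : ∀ k, ZMod (M k) → ℝ}
    (hρ0 : ∀ k t, 0 ≤ ρ k t) (hρ : ∀ k, ∑ t, ρ k t = 1)
    (s : ∀ k, Ω k → AddChar (ZMod (M k)) ℂ) (E : Finset (∀ k, Ω k)) (c : ℝ)
    (kv : (∀ k, Ω k) → ℝ) {y0 m : ℕ} {S : Finset ℕ} (hS : ∀ y ∈ S, y0 ≤ y ∧ y < y0 + m)
    {p : ℕ → ℝ} (hp : ∀ y ∈ S, 0 ≤ p y) {η : ℝ}
    (hη : ∀ ω ∈ E, |c + rv s ω - kv ω| * m ≤ η) :
    ‖(∑ ω ∈ E, (wt P ω : ℂ) * e (-((c + rv s ω - kv ω) * y0)) *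
        ∑ q, psi s ω q * ∑ y ∈ S, (p y : ℂ) * (ker ρ (pt M y) q : ℂ) * e (-(kv ω * y))) -
      (∑ ω ∈ E, (wt P ω : ℂ) * cc ρ s ω) * ∑ y ∈ S, (p y : ℂ) * e (-(c * y))‖ ≤
      2 * Real.pi * η * (∑ ω ∈ E, wt P ω) * ∑ y ∈ S, p y := by
  have h1 : ∀ ω, ∑ q, psi s ω q * ∑ y ∈ S, (p y : ℂ) * (ker ρ (pt M y) q : ℂ) * e (-(kv ω * y)) =
      cc ρ s ω * ∑ y ∈ S, (p y : ℂ) * e (rv s ω * y) * e (-(kv ω * y)) := by
    intro ω
    simp only [mul_sum]
    rw [sum_comm]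
    refine sum_congr rfl fun y _ => ?_
    have : ∀ q, psi s ω q * ((p y : ℂ) * (ker ρ (pt M y) q : ℂ) * e (-(kv ω * y))) =
        ((ker ρ (pt M y) q : ℂ) * psi s ω q) * ((p y : ℂ) * e (-(kv ω * y))) := fun q => by ring
    rw [sum_congr rfl fun q _ => this q, ← sum_mul, g1_int]
    ring
  simp only [h1]
  rw [sum_mul, ← sum_sub_distrib]
  have h2 : ∀ ω ∈ E, ‖(wt P ω : ℂ) * e (-((c + rv s ω - kv ω) * y0)) *
      (cc ρ s ω * ∑ y ∈ S, (p y : ℂ) * e (rv s ω * y) * e (-(kv ω * y))) -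
      (wt P ω : ℂ) * cc ρ s ω * ∑ y ∈ S, (p y : ℂ) * e (-(c * y))‖ ≤
      wt P ω * (2 * Real.pi * η * ∑ y ∈ S, p y) := by
    intro ω hω
    have h3 : (wt P ω : ℂ) * e (-((c + rv s ω - kv ω) * y0)) *
      (cc ρ s ω * ∑ y ∈ S, (p y : ℂ) * e (rv s ω * y) * e (-(kv ω * y))) -
      (wt P ω : ℂ) * cc ρ s ω * ∑ y ∈ S, (p y : ℂ) * e (-(c * y)) =
      (wt P ω : ℂ) * (cc ρ s ω * ∑ y ∈ S, (p y : ℂ) * (e (-(c * y)) *
        (e ((c + rv s ω - kv ω) * (y - y0)) - 1))) := by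
      have h4 : ∀ y : ℕ, e (-((c + rv s ω - kv ω) * y0)) * (e (rv s ω * y) * e (-(kv ω * y))) =
          e (-(c * y)) * e ((c + rv s ω - kv ω) * (y - y0)) := by
        intro y
        rw [← e_add, ← e_add, ← e_add]; congr 1; ring
      have h5 : e (-((c + rv s ω - kv ω) * y0)) *
          ∑ y ∈ S, (p y : ℂ) * e (rv s ω * y) * e (-(kv ω * y)) =
          ∑ y ∈ S, (p y : ℂ) * (e (-(c * y)) * e ((c + rv s ω - kv ω) * (y - y0))) := by
        rw [mul_sum]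
        refine sum_congr rfl fun y _ => ?_
        rw [← h4 y]; ring
      have h6 : ∑ y ∈ S, (p y : ℂ) * (e (-(c * y)) * (e ((c + rv s ω - kv ω) * (y - y0)) - 1)) =
          ∑ y ∈ S, (p y : ℂ) * (e (-(c * y)) * e ((c + rv s ω - kv ω) * (y - y0))) -
          ∑ y ∈ S, (p y : ℂ) * e (-(c * y)) := by
        rw [← sum_sub_distrib]; exact sum_congr rfl fun y _ => by ring
      rw [h6, ← h5]; ring
    rw [h3, norm_mul, norm_mul, Complex.norm_real, Real.norm_of_nonneg (wt_nonneg hP ω)]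
    refine mul_le_mul_of_nonneg_left ?_ (wt_nonneg hP ω)
    have h7 : ‖∑ y ∈ S, (p y : ℂ) * (e (-(c * y)) * (e ((c + rv s ω - kv ω) * (y - y0)) - 1))‖ ≤
        2 * Real.pi * η * ∑ y ∈ S, p y := by
      refine (norm_sum_le _ _).trans ?_
      rw [mul_sum]
      refine sum_le_sum fun y hy => ?_
      rw [norm_mul, norm_mul, norm_e, one_mul, Complex.norm_real, Real.norm_of_nonneg (hp y hy),
        mul_comm]
      refine mul_le_mul_of_nonneg_right ?_ (hp y hy)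
      refine (norm_e_sub_one_le _).trans ?_
      refine mul_le_mul_of_nonneg_left ?_ (by positivity)
      refine le_trans ?_ (hη ω hω)
      rw [abs_mul]
      refine mul_le_mul_of_nonneg_left ?_ (abs_nonneg _)
      have h8 := hS y hy
      have h9 : (y0 : ℝ) ≤ y := by exact_mod_cast h8.1
      have h10 : (y : ℝ) < y0 + m := by exact_mod_cast h8.2
      rw [abs_of_nonneg (by linarith)]
      linarith
    calc ‖cc ρ s ω‖ * _ ≤ 1 * (2 * Real.pi * η * ∑ y ∈ S, p y) :=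
          mul_le_mul (norm_cc_le hρ0 hρ s ω) h7 (norm_nonneg _) zero_le_one
      _ = _ := one_mul _
  refine (norm_sum_le _ _).trans ((sum_le_sum h2).trans (le_of_eq ?_))
  rw [← sum_mul]; ring

end

end Vale.Agent.P091.T.H120
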