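import Vale.Agent.P091.T.H120.G3
import Vale.Agent.P091.T.H522.Round
import Vale.Agent.P091.T.Defs

/-! # P091, row E1: the identity (G1) and the rounding over the frozen Defs

`J : List (Un n b)`, all letters, noises and values in `ZMod (2 ^ (n + b))`. -/

set_option autoImplicit false

open Finset

namespace Vale.Agent.P091.T.H120

open Vale.Agent.P091.Spec (e nd av avC)
open Vale.Agent.P065.Ent
open Vale.Agent.P091.T.H522 (em lo)

noncomputable section

variable {n b : ℕ}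

/-- letters or values of the units of the list -/
abbrev QJ (J : List (Un n b)) : Type := Fin J.length → ZMod (2 ^ (n + b))

/-- the character `t ↦ ch (w t)` -/
def cha (w : ZMod (2 ^ (n + b))) : AddChar (ZMod (2 ^ (n + b))) ℂ :=
  AddChar.mulShift ZMod.stdAddChar w

theorem cha_apply (w t : ZMod (2 ^ (n + b))) : cha w t = ch n b (w * t) := rfl

theorem norm_ch (x : ZMod (2 ^ (n + b))) : ‖ch n b x‖ = 1 := AddChar.norm_apply _ _

theorem ch_add (x y : ZMod (2 ^ (n + b))) : ch n b (x + y) = ch n b x * ch n b y :=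
  AddChar.map_add_eq_mul _ _ _

theorem ch_zero : ch n b 0 = 1 := AddChar.map_zero_eq_one _

theorem ch_sum {κ : Type*} (s : Finset κ) (f : κ → ZMod (2 ^ (n + b))) :
    ch n b (∑ k ∈ s, f k) = ∏ k ∈ s, ch n b (f k) := by
  classical
  induction s using Finset.induction_on with
  | empty => simp [ch_zero]
  | insert k s hk ih => rw [sum_insert hk, prod_insert hk, ch_add, ih]

theorem ch_int (m : ℤ) : ch n b (m : ZMod (2 ^ (n + b))) = e ((m : ℝ) / 2 ^ (n + b)) := by
  unfold ch e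
  rw [ZMod.stdAddChar_coe]
  congr 1
  push_cast
  ring

/-- the kernel of the values -/
def kerJ (J : List (Un n b)) (y : ℕ) (q : QJ J) : ℝ :=
  ker (fun k : Fin J.length => (J.get k).ρ) (fun _ => (y : ZMod (2 ^ (n + b)))) q

/-- the weight of the letters -/
def wtJ (J : List (Un n b)) (ω : QJ J) : ℝ := wt (fun k : Fin J.length => (J.get k).P) ω

/-- the sum of the letters -/
def RJ (J : List (Un n b)) (ω : QJ J) : ZMod (2 ^ (n + b)) := ∑ k, ω k

/-- `ch (Σ ω_k q_k)` -/
def psiJ (J : List (Un n b)) (ω q : QJ J) : ℂ :=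
  psi (G := fun _ : Fin J.length => ZMod (2 ^ (n + b))) (Ω := fun _ => ZMod (2 ^ (n + b)))
    (fun _ w => cha w) ω q

/-- `∏ ρ̂_k(ω_k)` -/
def ccJ (J : List (Un n b)) (ω : QJ J) : ℂ :=
  cc (G := fun _ : Fin J.length => ZMod (2 ^ (n + b))) (Ω := fun _ => ZMod (2 ^ (n + b)))
    (fun k => (J.get k).ρ) (fun _ w => cha w) ω

theorem kerJ_eq (J : List (Un n b)) (y : ℕ) (q : QJ J) :
    kerJ J y q = ∏ k, (J.get k).ρ (q k - (y : ZMod (2 ^ (n + b)))) := rfl

theorem psiJ_eq (J : List (Un n b)) (ω q : QJ J) : psiJ J ω q = ch n b (∑ k, ω k * q k) := by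
  rw [ch_sum]; rfl

theorem norm_psiJ (J : List (Un n b)) (ω q : QJ J) : ‖psiJ J ω q‖ = 1 := norm_psi _ _ _

theorem kerJ_nonneg {J : List (Un n b)} (hJ : ∀ k ∈ J, IsProb k.ρ) (y : ℕ) (q : QJ J) :
    0 ≤ kerJ J y q := ker_nonneg (fun k t => (hJ _ (List.get_mem J k)).1 t) _ _

theorem sum_kerJ {J : List (Un n b)} (hJ : ∀ k ∈ J, IsProb k.ρ) (y : ℕ) :
    ∑ q, kerJ J y q = 1 := sum_ker (fun k => (hJ _ (List.get_mem J k)).2) _

theorem wtJ_nonneg {J : List (Un n b)} (hJ : ∀ k ∈ J, IsProb k.P) (ω : QJ J) : 0 ≤ wtJ J ω :=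
  wt_nonneg (fun k t => (hJ _ (List.get_mem J k)).1 t) _

theorem norm_ccJ_le {J : List (Un n b)} (hJ : ∀ k ∈ J, IsProb k.ρ) (ω : QJ J) :
    ‖ccJ J ω‖ ≤ 1 :=
  norm_cc_le (fun k t => (hJ _ (List.get_mem J k)).1 t) (fun k => (hJ _ (List.get_mem J k)).2) _ _

/-- **(G1)** -/
theorem sum_psi_ker (J : List (Un n b)) (ω : QJ J) (y : ℕ) :
    ∑ q, (kerJ J y q : ℂ) * psiJ J ω q = ch n b (RJ J ω * y) * ccJ J ω := by
  have h := g1_id (G := fun _ : Fin J.length => ZMod (2 ^ (n + b)))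
    (Ω := fun _ => ZMod (2 ^ (n + b))) (fun k => (J.get k).ρ) (fun _ w => cha w) ω
    (fun _ => (y : ZMod (2 ^ (n + b))))
  have h2 : psi (G := fun _ : Fin J.length => ZMod (2 ^ (n + b)))
      (Ω := fun _ => ZMod (2 ^ (n + b))) (fun _ w => cha w) ω
      (fun _ => (y : ZMod (2 ^ (n + b)))) = ch n b (RJ J ω * y) := by
    unfold RJ
    rw [sum_mul, ch_sum]; rfl
  rw [h2] at h
  exact h

/-- the law of `R_J` -/
theorem sum_wtJ_comp (J : List (Un n b)) (f : ZMod (2 ^ (n + b)) → ℝ) :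
    ∑ ω, wtJ J ω * f (RJ J ω) = ∑ r, lawR J r * f r := by
  induction J generalizing f with
  | nil =>
    have h1 : ∀ ω : QJ ([] : List (Un n b)), wtJ [] ω * f (RJ [] ω) = f 0 := by
      intro ω
      have h2 : wtJ ([] : List (Un n b)) ω = 1 :=
        Fin.prod_univ_zero fun k : Fin 0 => (([] : List (Un n b)).get k).P (ω k)
      have h3 : RJ ([] : List (Un n b)) ω = 0 := Fin.sum_univ_zero _
      rw [h2, h3, one_mul]
    rw [sum_congr rfl fun ω _ => h1 ω]
    simp only [lawR, ite_mul, one_mul, zero_mul, sum_ite_eq', mem_univ, if_true]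
    rw [sum_const, card_univ]
    simp [QJ]
  | cons k J ih =>
    have h1 : ∑ ω : QJ (k :: J), wtJ (k :: J) ω * f (RJ (k :: J) ω) =
        ∑ s : ZMod (2 ^ (n + b)), ∑ ω : QJ J, (k.P s * wtJ J ω) * f (s + RJ J ω) := by
      rw [← Fintype.sum_prod_type' (f := fun (s : ZMod (2 ^ (n + b))) (ω : QJ J) =>
        (k.P s * wtJ J ω) * f (s + RJ J ω))]
      refine (Fintype.sum_equiv (Fin.consEquiv fun _ : Fin (J.length + 1) =>
        ZMod (2 ^ (n + b))) _ _ fun x => ?_).symm
      have h2 : wtJ (k :: J) (Fin.consEquiv (fun _ : Fin (J.length + 1) =>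
          ZMod (2 ^ (n + b))) x) = k.P x.1 * wtJ J x.2 := by
        unfold wtJ wt
        exact Fin.prod_univ_succ _
      have h3 : RJ (k :: J) (Fin.consEquiv (fun _ : Fin (J.length + 1) =>
          ZMod (2 ^ (n + b))) x) = x.1 + RJ J x.2 := by
        unfold RJ
        exact Fin.sum_univ_succ _
      rw [h2, h3]
    rw [h1]
    have h4 : ∀ s, ∑ ω : QJ J, (k.P s * wtJ J ω) * f (s + RJ J ω) =
        k.P s * ∑ r, lawR J r * f (s + r) := by
      intro s
      rw [← ih (fun r => f (s + r)), mul_sum]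
      exact sum_congr rfl fun ω _ => by ring
    rw [sum_congr rfl fun s _ => h4 s]
    simp only [lawR, sum_mul, mul_sum]
    rw [sum_comm]
    conv_rhs => rw [sum_comm]
    rw [sum_comm]
    refine sum_congr rfl fun s _ => ?_
    refine Fintype.sum_equiv (Equiv.addLeft s) _ _ fun r => ?_
    rw [Equiv.coe_addLeft, add_sub_cancel_left]
    ring

/-- the rounded law -/
theorem pj_eq (J : List (Un n b)) (j : ℕ) (s : ZMod (2 ^ (n + b - j))) :
    pj J j s = ∑ ω, if rd n b j (RJ J ω) = s then wtJ J ω else 0 := by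
  have h := sum_wtJ_comp J (fun r => if rd n b j r = s then (1 : ℝ) else 0)
  simp only [mul_ite, mul_one, mul_zero] at h
  rw [h]
  unfold pj Pr
  exact sum_congr rfl fun r _ => by split_ifs <;> rfl

end

end Vale.Agent.P091.T.H120
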