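import Vale.Agent.P091.T.H120.Rep

/-! # P091, row E1: a letter on a node as a finite sum over list elements, values and indicators

Activation node `(j, a)`, `y0 = a 2^(n-j)`; `κ = rd r + rd R_J`; `em κ` the letter of `κ`;
`E` the set of the explained shifts `s = rd R_J`. -/

set_option autoImplicit false

open Finset

namespace Vale.Agent.P091.T.H120

open Vale.Agent.P091.Spec (e nd avC av)
open Vale.Agent.P065.Ent
open Vale.Agent.P091.T.H522 (em lo)

noncomputable section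

variable {n b : ℕ}

/-- the slow frequency `(lo r + lo R) / 2 ^ (n + b)` -/
def dl (j : ℕ) (r R : ZMod (2 ^ (n + b))) : ℝ :=
  ((lo (n + b) j r + lo (n + b) j R : ℕ) : ℝ) / 2 ^ (n + b)

theorem dl_nonneg (j : ℕ) (r R : ZMod (2 ^ (n + b))) : 0 ≤ dl j r R := by
  unfold dl; positivity

theorem dl_mul_le {j : ℕ} (hj : j ≤ n) (r R : ZMod (2 ^ (n + b))) :
    dl j r R * (2 ^ (n - j) : ℕ) ≤ 2 / 2 ^ b := by
  have h1 : lo (n + b) j r + lo (n + b) j R ≤ 2 * 2 ^ j := by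
    have := H522.lo_lt (n + b) j r
    have := H522.lo_lt (n + b) j R
    omega
  have h2 : ((lo (n + b) j r + lo (n + b) j R : ℕ) : ℝ) ≤ 2 * 2 ^ j := by exact_mod_cast h1
  have h3 : (2 : ℝ) ^ (n + b) = 2 ^ j * 2 ^ (n - j) * 2 ^ b := by
    rw [← pow_add, Nat.add_sub_cancel' hj, ← pow_add]
  unfold dl
  rw [div_mul_eq_mul_div, h3, div_le_div_iff₀ (by positivity) (by positivity)]
  push_cast at h2 ⊢
  have h4 : (0 : ℝ) < 2 ^ (n - j) * 2 ^ b := by positivity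
  nlinarith [mul_le_mul_of_nonneg_right h2 h4.le]

/-- splitting of a letter: list letter times slow phase -/
theorem ch_split {j : ℕ} (hj : j ≤ n + b) (r R : ZMod (2 ^ (n + b))) (y : ℕ) :
    ch n b (-(r * y)) = ch n b (R * y) *
      (ch n b (-(em (n + b) j (rd n b j r + rd n b j R) * y)) * e (-dl j r R * y)) := by
  have h1 : r = em (n + b) j (rd n b j r) + (lo (n + b) j r : ZMod (2 ^ (n + b))) :=
    H522.eq_em_add_lo hj r
  have h2 : R = em (n + b) j (rd n b j R) + (lo (n + b) j R : ZMod (2 ^ (n + b))) :=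
    H522.eq_em_add_lo hj R
  have h3 : em (n + b) j (rd n b j r + rd n b j R) =
      em (n + b) j (rd n b j r) + em (n + b) j (rd n b j R) := H522.em_add hj _ _
  have h4 : -(r * y) = R * y + (-(em (n + b) j (rd n b j r + rd n b j R) * y) +
      ((-(((lo (n + b) j r + lo (n + b) j R) * y : ℕ) : ℤ) : ℤ) : ZMod (2 ^ (n + b)))) := by
    rw [h3]
    push_cast
    linear_combination (-(y : ZMod (2 ^ (n + b)))) * h1 - (y : ZMod (2 ^ (n + b))) * h2
  rw [h4, ch_add, ch_add, ch_int]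
  unfold dl
  congr 3
  push_cast
  ring

/-- `DD δ 0 = 1`, `DD δ t = dd δ t` -/
def DD (δ : ℝ) (t : ℕ) : ℂ := if t = 0 then 1 else dd δ t

theorem DD_zero (δ : ℝ) : DD δ 0 = 1 := if_pos rfl

theorem exp_DD (δ : ℝ) {m t : ℕ} (ht : t < m) :
    e (δ * t) = ∑ s ∈ range m, if s ≤ t then DD δ s else 0 := by
  rw [round_exp δ ht]
  rw [Finset.sum_range_eq_add_Ico _ (show 0 < m by omega), if_pos (Nat.zero_le _), DD_zero]
  congr 1
  refine sum_congr rfl fun s hs => ?_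
  rw [mem_Ico] at hs
  unfold DD
  rw [if_neg (show s ≠ 0 by omega)]

theorem norm_DD_le (δ : ℝ) {t : ℕ} (ht : t ≠ 0) : ‖DD δ t‖ ≤ 2 * Real.pi * |δ| := by
  unfold DD; rw [if_neg ht]; exact norm_dd_le _ _

/-- total explained mass with the noise: `φ` -/
def phiJ (J : List (Un n b)) (j : ℕ) (E : Finset (ZMod (2 ^ (n + b - j)))) : ℂ :=
  ∑ ω, if rd n b j (RJ J ω) ∈ E then (wtJ J ω : ℂ) * ccJ J ω else 0

theorem re_phiJ_ge {J : List (Un n b)} {ε D : ℝ} {Y : Finset ℕ} (hJ : ∀ k ∈ J, k.Ok ε D Y)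
    (j : ℕ) (E : Finset (ZMod (2 ^ (n + b - j)))) :
    ∑ s ∈ E, pj J j s - (J.length : ℝ) ^ 2 * ε / 2 ≤ (phiJ J j E).re := by
  classical
  have h := g1_part (G := fun _ : Fin J.length => ZMod (2 ^ (n + b)))
    (Ω := fun _ => ZMod (2 ^ (n + b))) (P := fun k => (J.get k).P) (ρ := fun k => (J.get k).ρ)
    (fun _ w => cha w) (fun k t => (hJ _ (List.get_mem J k)).P1.1 t)
    (fun k => (hJ _ (List.get_mem J k)).P1.2) (fun k t => (hJ _ (List.get_mem J k)).ρ1.1 t)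
    (fun k => (hJ _ (List.get_mem J k)).ρ1.2) (κ := fun _ => ε)
    (fun k => (hJ _ (List.get_mem J k)).coh)
    (univ.filter fun ω => rd n b j (RJ J ω) ∈ E)
  have h1 : ∑ s ∈ E, pj J j s = ∑ ω ∈ univ.filter (fun ω => rd n b j (RJ J ω) ∈ E), wtJ J ω := by
    simp only [pj_eq]
    rw [sum_comm, sum_filter]
    refine sum_congr rfl fun ω _ => ?_
    rw [sum_ite_eq E (rd n b j (RJ J ω)) fun _ => wtJ J ω]
  have h2 : (phiJ J j E).re =
      ∑ ω ∈ univ.filter (fun ω => rd n b j (RJ J ω) ∈ E), wtJ J ω * (ccJ J ω).re := by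
    unfold phiJ
    rw [← sum_filter, Complex.re_sum]
    exact sum_congr rfl fun ω _ => Complex.re_ofReal_mul _ _
  rw [h1, h2]
  have h3 : (Fintype.card (Fin J.length) : ℝ) / 2 * ∑ _k : Fin J.length, ε =
      (J.length : ℝ) ^ 2 * ε / 2 := by
    rw [sum_const, card_univ, Fintype.card_fin, nsmul_eq_mul]; ring
  rw [h3] at h
  exact h

theorem norm_phiJ_ge {J : List (Un n b)} {ε D : ℝ} {Y : Finset ℕ} (hJ : ∀ k ∈ J, k.Ok ε D Y)
    (j : ℕ) (E : Finset (ZMod (2 ^ (n + b - j)))) :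
    ∑ s ∈ E, pj J j s - (J.length : ℝ) ^ 2 * ε / 2 ≤ ‖phiJ J j E‖ :=
  (re_phiJ_ge hJ j E).trans (Complex.re_le_norm _)

/-- the coefficient of the list element `κ`, the values `q`, the indicator `[y0 + t ≤ y]` -/
def XJ (J : List (Un n b)) (j : ℕ) (E : Finset (ZMod (2 ^ (n + b - j)))) (r : ZMod (2 ^ (n + b)))
    (y0 : ℕ) (κ : ZMod (2 ^ (n + b - j))) (q : QJ J) (t : ℕ) : ℂ :=
  (phiJ J j E)⁻¹ * ∑ ω, if rd n b j (RJ J ω) ∈ E ∧ rd n b j r + rd n b j (RJ J ω) = κ then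
    (wtJ J ω : ℂ) * (e (-dl j r (RJ J ω) * y0) * DD (-dl j r (RJ J ω)) t) * psiJ J ω q else 0

/-- the weight of the list element `κ` -/
def pE (J : List (Un n b)) (j : ℕ) (E : Finset (ZMod (2 ^ (n + b - j)))) (r : ZMod (2 ^ (n + b)))
    (κ : ZMod (2 ^ (n + b - j))) : ℝ :=
  if κ - rd n b j r ∈ E then pj J j (κ - rd n b j r) else 0

theorem pE_eq (J : List (Un n b)) (j : ℕ) (E : Finset (ZMod (2 ^ (n + b - j))))
    (r : ZMod (2 ^ (n + b))) (κ : ZMod (2 ^ (n + b - j))) :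
    pE J j E r κ = ∑ ω, if rd n b j (RJ J ω) ∈ E ∧ rd n b j r + rd n b j (RJ J ω) = κ then
      wtJ J ω else 0 := by
  classical
  unfold pE
  split_ifs with h
  · rw [pj_eq]
    refine sum_congr rfl fun ω _ => ?_
    have h1 : rd n b j (RJ J ω) = κ - rd n b j r ↔
        (rd n b j (RJ J ω) ∈ E ∧ rd n b j r + rd n b j (RJ J ω) = κ) := by
      constructor
      · intro h2; rw [h2]; exact ⟨h, by abel⟩
      · rintro ⟨_, h2⟩; rw [← h2]; abel
    by_cases h2 : rd n b j (RJ J ω) = κ - rd n b j r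
    · rw [if_pos h2, if_pos (h1.1 h2)]
    · rw [if_neg h2, if_neg (fun h3 => h2 (h1.2 h3))]
  · symm
    refine sum_eq_zero fun ω _ => if_neg ?_
    rintro ⟨h1, h2⟩
    exact h (by rw [← h2, add_sub_cancel_left]; exact h1)

/-- **the representation** on the node `(j, a)` -/
theorem rep {J : List (Un n b)} {j a : ℕ} (hj : j ≤ n)
    {E : Finset (ZMod (2 ^ (n + b - j)))} (hφ : phiJ J j E ≠ 0) (r : ZMod (2 ^ (n + b)))
    {y : ℕ} (hy : y ∈ nd n j a) :
    ch n b (-(r * y)) = ∑ κ, ∑ q : QJ J, ∑ t ∈ range (2 ^ (n - j)),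
      XJ J j E r (a * 2 ^ (n - j)) κ q t *
        (((kerJ J y q * if a * 2 ^ (n - j) + t ≤ y then 1 else 0 : ℝ) : ℂ) *
          ch n b (-(em (n + b) j κ * y))) := by
  classical
  set y0 := a * 2 ^ (n - j) with hy0
  have hy1 : y0 ≤ y ∧ y < y0 + 2 ^ (n - j) := by
    unfold nd at hy
    rw [mem_Ico, add_mul, one_mul] at hy
    exact hy
  obtain ⟨t0, rfl⟩ := Nat.exists_eq_add_of_le hy1.1
  have ht0 : t0 < 2 ^ (n - j) := by omega
  -- pointwise in the letters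
  have hpt : ∀ ω : QJ J, ∑ q : QJ J, ∑ t ∈ range (2 ^ (n - j)),
      (e (-dl j r (RJ J ω) * y0) * DD (-dl j r (RJ J ω)) t) * psiJ J ω q *
        (((kerJ J (y0 + t0) q * if y0 + t ≤ y0 + t0 then 1 else 0 : ℝ) : ℂ) *
          ch n b (-(em (n + b) j (rd n b j r + rd n b j (RJ J ω)) * ((y0 + t0 : ℕ) : ZMod _)))) =
      ccJ J ω * ch n b (-(r * ((y0 + t0 : ℕ) : ZMod _))) := by
    intro ω
    have h1 : ∀ q : QJ J, ∑ t ∈ range (2 ^ (n - j)),
        (e (-dl j r (RJ J ω) * y0) * DD (-dl j r (RJ J ω)) t) * psiJ J ω q *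
        (((kerJ J (y0 + t0) q * if y0 + t ≤ y0 + t0 then 1 else 0 : ℝ) : ℂ) *
          ch n b (-(em (n + b) j (rd n b j r + rd n b j (RJ J ω)) * ((y0 + t0 : ℕ) : ZMod _)))) =
        ((kerJ J (y0 + t0) q : ℂ) * psiJ J ω q) * (e (-dl j r (RJ J ω) * y0) *
          ch n b (-(em (n + b) j (rd n b j r + rd n b j (RJ J ω)) * ((y0 + t0 : ℕ) : ZMod _))) *
          e (-dl j r (RJ J ω) * t0)) := by
      intro q
      rw [exp_DD _ ht0, mul_sum, mul_sum]
      refine sum_congr rfl fun t _ => ?_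
      simp only [Nat.add_le_add_iff_left]
      split_ifs
      · push_cast; ring
      · push_cast; ring
    rw [sum_congr rfl fun q _ => h1 q, ← sum_mul, sum_psi_ker,
      ch_split (hj.trans (Nat.le_add_right n b)) r (RJ J ω) (y0 + t0)]
    have h2 : e (-dl j r (RJ J ω) * ((y0 + t0 : ℕ) : ℝ)) =
        e (-dl j r (RJ J ω) * y0) * e (-dl j r (RJ J ω) * t0) := by
      rw [← e_add]; congr 1; push_cast; ring
    rw [h2]; ring
  have h3 : ∑ κ, ∑ q : QJ J, ∑ t ∈ range (2 ^ (n - j)), XJ J j E r y0 κ q t *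
        (((kerJ J (y0 + t0) q * if y0 + t ≤ y0 + t0 then 1 else 0 : ℝ) : ℂ) *
          ch n b (-(em (n + b) j κ * ((y0 + t0 : ℕ) : ZMod _)))) =
      (phiJ J j E)⁻¹ * ∑ ω, if rd n b j (RJ J ω) ∈ E then (wtJ J ω : ℂ) *
        (ccJ J ω * ch n b (-(r * ((y0 + t0 : ℕ) : ZMod _)))) else 0 := by
    unfold XJ
    simp only [mul_assoc, sum_mul, ← mul_sum]
    congr 1
    have h4 : ∀ κ, ∑ q : QJ J, ∑ t ∈ range (2 ^ (n - j)), ∑ ω,
        (if rd n b j (RJ J ω) ∈ E ∧ rd n b j r + rd n b j (RJ J ω) = κ then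
          (wtJ J ω : ℂ) * (e (-dl j r (RJ J ω) * y0) * (DD (-dl j r (RJ J ω)) t * psiJ J ω q))
          else 0) *
        (((kerJ J (y0 + t0) q * if y0 + t ≤ y0 + t0 then 1 else 0 : ℝ) : ℂ) *
          ch n b (-(em (n + b) j κ * ((y0 + t0 : ℕ) : ZMod _)))) =
        ∑ ω, if rd n b j (RJ J ω) ∈ E ∧ rd n b j r + rd n b j (RJ J ω) = κ then
          (wtJ J ω : ℂ) * (ccJ J ω * ch n b (-(r * ((y0 + t0 : ℕ) : ZMod _)))) else 0 := by
      intro κ
      have h5 : ∀ q : QJ J, ∑ t ∈ range (2 ^ (n - j)), ∑ ω,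
        (if rd n b j (RJ J ω) ∈ E ∧ rd n b j r + rd n b j (RJ J ω) = κ then
          (wtJ J ω : ℂ) * (e (-dl j r (RJ J ω) * y0) * (DD (-dl j r (RJ J ω)) t * psiJ J ω q))
          else 0) *
        (((kerJ J (y0 + t0) q * if y0 + t ≤ y0 + t0 then 1 else 0 : ℝ) : ℂ) *
          ch n b (-(em (n + b) j κ * ((y0 + t0 : ℕ) : ZMod _)))) =
        ∑ ω, ∑ t ∈ range (2 ^ (n - j)),
        (if rd n b j (RJ J ω) ∈ E ∧ rd n b j r + rd n b j (RJ J ω) = κ then
          (wtJ J ω : ℂ) * (e (-dl j r (RJ J ω) * y0) * (DD (-dl j r (RJ J ω)) t * psiJ J ω q))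
          else 0) *
        (((kerJ J (y0 + t0) q * if y0 + t ≤ y0 + t0 then 1 else 0 : ℝ) : ℂ) *
          ch n b (-(em (n + b) j κ * ((y0 + t0 : ℕ) : ZMod _)))) := fun q => sum_comm
      rw [sum_congr rfl fun q _ => h5 q, sum_comm]
      refine sum_congr rfl fun ω _ => ?_
      by_cases h6 : rd n b j (RJ J ω) ∈ E ∧ rd n b j r + rd n b j (RJ J ω) = κ
      · simp only [if_pos h6]
        rw [← hpt ω, mul_sum]
        refine sum_congr rfl fun q _ => ?_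
        rw [mul_sum]
        refine sum_congr rfl fun t _ => ?_
        rw [h6.2]; ring
      · simp only [if_neg h6, zero_mul, sum_const_zero]
    rw [sum_congr rfl fun κ _ => h4 κ, sum_comm]
    refine sum_congr rfl fun ω _ => ?_
    by_cases h7 : rd n b j (RJ J ω) ∈ E
    · simp only [h7, true_and, if_true]
      rw [sum_ite_eq univ (rd n b j r + rd n b j (RJ J ω)) fun _ => _, if_pos (mem_univ _)]
    · simp only [h7, false_and, if_false, sum_const_zero]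
  rw [h3]
  have h8 : (∑ ω, if rd n b j (RJ J ω) ∈ E then (wtJ J ω : ℂ) *
        (ccJ J ω * ch n b (-(r * ((y0 + t0 : ℕ) : ZMod _)))) else 0) =
      phiJ J j E * ch n b (-(r * ((y0 + t0 : ℕ) : ZMod _))) := by
    unfold phiJ
    rw [sum_mul]
    refine sum_congr rfl fun ω _ => ?_
    split_ifs
    · ring
    · ring
  rw [h8, ← mul_assoc, inv_mul_cancel₀ hφ, one_mul]

/-- size of the coefficients, `t = 0` -/
theorem norm_XJ_zero_le {J : List (Un n b)} (hJ : ∀ k ∈ J, IsProb k.P) (j : ℕ)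
    (E : Finset (ZMod (2 ^ (n + b - j)))) (r : ZMod (2 ^ (n + b))) (y0 : ℕ)
    (κ : ZMod (2 ^ (n + b - j))) (q : QJ J) :
    ‖XJ J j E r y0 κ q 0‖ ≤ ‖phiJ J j E‖⁻¹ * pE J j E r κ := by
  unfold XJ
  rw [norm_mul, norm_inv, pE_eq]
  refine mul_le_mul_of_nonneg_left ?_ (inv_nonneg.2 (norm_nonneg _))
  refine (norm_sum_le _ _).trans (sum_le_sum fun ω _ => ?_)
  split_ifs
  · rw [norm_mul, norm_mul, norm_mul, DD_zero, norm_one, norm_e, norm_psiJ, Complex.norm_real,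
      Real.norm_of_nonneg (wtJ_nonneg hJ ω)]
    simp
  · simp

/-- size of the coefficients, `t ≠ 0` -/
theorem norm_XJ_le {J : List (Un n b)} (hJ : ∀ k ∈ J, IsProb k.P) {j : ℕ} (hj : j ≤ n)
    (E : Finset (ZMod (2 ^ (n + b - j)))) (r : ZMod (2 ^ (n + b))) (y0 : ℕ)
    (κ : ZMod (2 ^ (n + b - j))) (q : QJ J) {t : ℕ} (ht : t ≠ 0) :
    ‖XJ J j E r y0 κ q t‖ ≤
      (4 * Real.pi / 2 ^ b / (2 ^ (n - j) : ℕ)) * (‖phiJ J j E‖⁻¹ * pE J j E r κ) := by
  unfold XJ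
  rw [norm_mul, norm_inv, pE_eq, mul_left_comm]
  refine mul_le_mul_of_nonneg_left ?_ (inv_nonneg.2 (norm_nonneg _))
  rw [mul_sum]
  refine (norm_sum_le _ _).trans (sum_le_sum fun ω _ => ?_)
  split_ifs
  · rw [norm_mul, norm_mul, norm_mul, norm_e, norm_psiJ, Complex.norm_real,
      Real.norm_of_nonneg (wtJ_nonneg hJ ω), one_mul, mul_one, mul_comm]
    refine mul_le_mul_of_nonneg_right ((norm_DD_le _ ht).trans ?_) (wtJ_nonneg hJ ω)
    rw [abs_neg, abs_of_nonneg (dl_nonneg j r _), le_div_iff₀ (by positivity)]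
    have := dl_mul_le (n := n) (b := b) hj r (RJ J ω)
    have hpi : 0 ≤ 2 * Real.pi := by positivity
    calc 2 * Real.pi * dl j r (RJ J ω) * (2 ^ (n - j) : ℕ)
        = 2 * Real.pi * (dl j r (RJ J ω) * (2 ^ (n - j) : ℕ)) := by ring
      _ ≤ 2 * Real.pi * (2 / 2 ^ b) := mul_le_mul_of_nonneg_left this hpi
      _ = 4 * Real.pi / 2 ^ b := by ring
  · simp

end

end Vale.Agent.P091.T.H120
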