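import Vale.Agent.P091.T.H120.Rep2

/-! # P091, row E1: the representation of `BZ`, the bias of one list element -/

set_option autoImplicit false

open Finset

namespace Vale.Agent.P091.T.H120

open Vale.Agent.P091.Spec (e nd avC av)
open Vale.Agent.P065.Ent
open Vale.Agent.P091.T.H522 (em lo)

noncomputable section

variable {n b : ℕ}

/-- the y-weight of the values `q` and of the indicator `t` -/
def wq (J : List (Un n b)) (w : ℕ → ℝ) (y0 : ℕ) (q : QJ J) (t i : ℕ) : ℝ :=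
  w i * (kerJ J i q * if y0 + t ≤ i then 1 else 0)

/-- the letter of the list element `κ` on the y-side: `B_{κ,q,t}(v)` -/
def BQ (J : List (Un n b)) (w : ℕ → ℝ) (j y0 : ℕ) (κ : ZMod (2 ^ (n + b - j))) (q : QJ J)
    (t j' a' : ℕ) : ℂ :=
  avC n j' a' fun i => (wq J w y0 q t i : ℂ) * ch n b (-(em (n + b) j κ * i))

/-- `G_{q,t}(v)` -/
def GQ (J : List (Un n b)) (w : ℕ → ℝ) (y0 : ℕ) (q : QJ J) (t j' a' : ℕ) : ℝ :=
  av n j' a' (wq J w y0 q t)

theorem wq_nonneg {J : List (Un n b)} (hJ : ∀ k ∈ J, IsProb k.ρ) {w : ℕ → ℝ}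
    (hw : ∀ i, 0 ≤ w i) (y0 : ℕ) (q : QJ J) (t i : ℕ) : 0 ≤ wq J w y0 q t i := by
  unfold wq
  refine mul_nonneg (hw i) (mul_nonneg (kerJ_nonneg hJ i q) ?_)
  split_ifs <;> norm_num

theorem sum_wq_le {J : List (Un n b)} (hJ : ∀ k ∈ J, IsProb k.ρ) {w : ℕ → ℝ}
    (hw : ∀ i, 0 ≤ w i) (y0 : ℕ) (t i : ℕ) : ∑ q : QJ J, wq J w y0 q t i ≤ w i := by
  unfold wq
  rw [← mul_sum, ← sum_mul, sum_kerJ hJ]
  split_ifs
  · linarith
  · simpa using hw i

/-- `G_{q,0}` adds up to the weight exactly -/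
theorem sum_wq_zero {J : List (Un n b)} (hJ : ∀ k ∈ J, IsProb k.ρ) (w : ℕ → ℝ)
    {y0 i : ℕ} (hi : y0 ≤ i) : ∑ q : QJ J, wq J w y0 q 0 i = w i := by
  unfold wq
  rw [← mul_sum, ← sum_mul, sum_kerJ hJ, if_pos (by omega), mul_one, mul_one]

theorem norm_BQ_le {J : List (Un n b)} (hJ : ∀ k ∈ J, IsProb k.ρ) {w : ℕ → ℝ}
    (hw : ∀ i, 0 ≤ w i) (j y0 : ℕ) (κ : ZMod (2 ^ (n + b - j))) (q : QJ J) (t j' a' : ℕ) :
    ‖BQ J w j y0 κ q t j' a'‖ ≤ GQ J w y0 q t j' a' := by
  unfold BQ GQ avC av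
  rw [norm_div, norm_pow, Complex.norm_ofNat]
  refine div_le_div_of_nonneg_right ?_ (by positivity)
  refine (norm_sum_le _ _).trans (le_of_eq (sum_congr rfl fun i _ => ?_))
  rw [norm_mul, norm_ch, mul_one, Complex.norm_real, Real.norm_of_nonneg (wq_nonneg hJ hw _ _ _ _)]

/-- **the representation of the letter `r` below the activation node `(j, a)`** -/
theorem BZ_rep {J : List (Un n b)} {j a : ℕ} (hj : j ≤ n)
    {E : Finset (ZMod (2 ^ (n + b - j)))} (hφ : phiJ J j E ≠ 0) (r : ZMod (2 ^ (n + b)))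
    (w : ℕ → ℝ) {j' a' : ℕ} (hsub : nd n j' a' ⊆ nd n j a) :
    BZ n b w r j' a' = ∑ κ, ∑ q : QJ J, ∑ t ∈ range (2 ^ (n - j)),
      XJ J j E r (a * 2 ^ (n - j)) κ q t * BQ J w j (a * 2 ^ (n - j)) κ q t j' a' := by
  have h1 : ∀ i ∈ nd n j' a', (w i : ℂ) * ch n b (-(r * i)) =
      ∑ κ, ∑ q : QJ J, ∑ t ∈ range (2 ^ (n - j)), XJ J j E r (a * 2 ^ (n - j)) κ q t *
        ((wq J w (a * 2 ^ (n - j)) q t i : ℂ) * ch n b (-(em (n + b) j κ * i))) := by
    intro i hi
    rw [rep hj hφ r (hsub hi), mul_sum]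
    refine sum_congr rfl fun κ _ => ?_
    rw [mul_sum]
    refine sum_congr rfl fun q _ => ?_
    rw [mul_sum]
    refine sum_congr rfl fun t _ => ?_
    unfold wq
    push_cast
    ring
  unfold BZ BQ avC
  rw [sum_congr rfl h1, sum_comm, sum_div]
  refine sum_congr rfl fun κ _ => ?_
  rw [sum_comm, sum_div]
  refine sum_congr rfl fun q _ => ?_
  rw [sum_comm, sum_div]
  refine sum_congr rfl fun t _ => ?_
  rw [← mul_sum, mul_div_assoc]

/-- the noise mass of the list element `κ` -/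
def cE (J : List (Un n b)) (j : ℕ) (E : Finset (ZMod (2 ^ (n + b - j)))) (r : ZMod (2 ^ (n + b)))
    (κ : ZMod (2 ^ (n + b - j))) : ℂ :=
  (phiJ J j E)⁻¹ * ∑ ω, if rd n b j (RJ J ω) ∈ E ∧ rd n b j r + rd n b j (RJ J ω) = κ then
    (wtJ J ω : ℂ) * ccJ J ω else 0

theorem norm_cE_le {J : List (Un n b)} (hJ : ∀ k ∈ J, IsProb k.P) (hJ' : ∀ k ∈ J, IsProb k.ρ)
    (j : ℕ) (E : Finset (ZMod (2 ^ (n + b - j)))) (r : ZMod (2 ^ (n + b)))
    (κ : ZMod (2 ^ (n + b - j))) :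
    ‖cE J j E r κ‖ ≤ ‖phiJ J j E‖⁻¹ * pE J j E r κ := by
  unfold cE
  rw [norm_mul, norm_inv, pE_eq]
  refine mul_le_mul_of_nonneg_left ?_ (inv_nonneg.2 (norm_nonneg _))
  refine (norm_sum_le _ _).trans (sum_le_sum fun ω _ => ?_)
  split_ifs
  · rw [norm_mul, Complex.norm_real, Real.norm_of_nonneg (wtJ_nonneg hJ ω)]
    exact mul_le_of_le_one_right (wtJ_nonneg hJ ω) (norm_ccJ_le hJ' ω)
  · simp

/-- **the main term of one list element is the bias of the letter**, up to the rounding -/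
theorem bias_main {J : List (Un n b)} (hJ : ∀ k ∈ J, IsProb k.P) (hJ' : ∀ k ∈ J, IsProb k.ρ)
    {j a : ℕ} (hj : j ≤ n) (E : Finset (ZMod (2 ^ (n + b - j)))) (r : ZMod (2 ^ (n + b)))
    {w : ℕ → ℝ} (hw : ∀ i, 0 ≤ w i) {j' a' : ℕ} (hsub : nd n j' a' ⊆ nd n j a)
    (κ : ZMod (2 ^ (n + b - j))) :
    ‖(∑ q : QJ J, XJ J j E r (a * 2 ^ (n - j)) κ q 0 *
        BQ J w j (a * 2 ^ (n - j)) κ q 0 j' a') - cE J j E r κ * BZ n b w r j' a'‖ ≤
      ‖phiJ J j E‖⁻¹ * pE J j E r κ * (4 * Real.pi / 2 ^ b * av n j' a' w) := by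
  classical
  set y0 := a * 2 ^ (n - j) with hy0
  have hin : ∀ i ∈ nd n j' a', y0 ≤ i ∧ i < y0 + 2 ^ (n - j) := by
    intro i hi
    have := hsub hi
    unfold nd at this
    rw [mem_Ico, add_mul, one_mul] at this
    exact this
  -- the term of one list of letters
  have hω : ∀ ω : QJ J, rd n b j r + rd n b j (RJ J ω) = κ →
      e (-dl j r (RJ J ω) * y0) * ∑ q : QJ J, psiJ J ω q * BQ J w j y0 κ q 0 j' a' =
      ccJ J ω * avC n j' a' fun i => (w i : ℂ) * ch n b (-(r * i)) *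
        e (dl j r (RJ J ω) * (i - y0)) := by
    intro ω hκ
    have h1 : ∑ q : QJ J, psiJ J ω q * BQ J w j y0 κ q 0 j' a' =
        avC n j' a' fun i => (w i : ℂ) * (ch n b (RJ J ω * i) * ccJ J ω) *
          ch n b (-(em (n + b) j κ * i)) := by
      unfold BQ avC
      simp only [← mul_div_assoc, mul_sum]
      rw [← sum_div, sum_comm]
      congr 1
      refine sum_congr rfl fun i hi => ?_
      rw [← sum_psi_ker, mul_sum, sum_mul]
      refine sum_congr rfl fun q _ => ?_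
      unfold wq
      rw [if_pos (by have := (hin i hi).1; omega)]
      push_cast
      ring
    rw [h1]
    unfold avC
    rw [mul_div_assoc', mul_div_assoc', mul_sum, mul_sum]
    congr 1
    refine sum_congr rfl fun i _ => ?_
    have h2 := ch_split (hj.trans (Nat.le_add_right n b)) r (RJ J ω) i
    rw [hκ] at h2
    have h3 : e (-dl j r (RJ J ω) * y0) =
        e (-dl j r (RJ J ω) * i) * e (dl j r (RJ J ω) * (i - y0)) := by
      rw [← e_add]; congr 1; ring
    rw [h2, h3]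
    ring
  have hmain : (∑ q : QJ J, XJ J j E r y0 κ q 0 * BQ J w j y0 κ q 0 j' a') -
      cE J j E r κ * BZ n b w r j' a' = (phiJ J j E)⁻¹ *
      ∑ ω, if rd n b j (RJ J ω) ∈ E ∧ rd n b j r + rd n b j (RJ J ω) = κ then
        (wtJ J ω : ℂ) * (ccJ J ω * avC n j' a' fun i => (w i : ℂ) * ch n b (-(r * i)) *
          (e (dl j r (RJ J ω) * (i - y0)) - 1)) else 0 := by
    have h1 : ∑ q : QJ J, XJ J j E r y0 κ q 0 * BQ J w j y0 κ q 0 j' a' = (phiJ J j E)⁻¹ *
        ∑ ω, if rd n b j (RJ J ω) ∈ E ∧ rd n b j r + rd n b j (RJ J ω) = κ then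
        (wtJ J ω : ℂ) * (e (-dl j r (RJ J ω) * y0) * ∑ q : QJ J, psiJ J ω q *
          BQ J w j y0 κ q 0 j' a') else 0 := by
      unfold XJ
      simp only [DD_zero, mul_one, mul_assoc, sum_mul, ← mul_sum]
      congr 1
      rw [sum_comm]
      refine sum_congr rfl fun ω _ => ?_
      split_ifs
      · rw [mul_sum, mul_sum]
        exact sum_congr rfl fun q _ => by ring
      · simp
    rw [h1]
    unfold cE
    rw [mul_assoc, ← mul_sub, sum_mul, ← sum_sub_distrib]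
    congr 1
    refine sum_congr rfl fun ω _ => ?_
    split_ifs with h
    · rw [hω ω h.2]
      have h4 : (avC n j' a' fun i => (w i : ℂ) * ch n b (-(r * i)) *
          (e (dl j r (RJ J ω) * (i - y0)) - 1)) = (avC n j' a' fun i => (w i : ℂ) *
          ch n b (-(r * i)) * e (dl j r (RJ J ω) * (i - y0))) - BZ n b w r j' a' := by
        unfold BZ avC
        rw [← sub_div, ← sum_sub_distrib]
        congr 1
        exact sum_congr rfl fun i _ => by ring
      rw [h4]; ring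
    · simp
  rw [hmain, norm_mul, norm_inv, mul_assoc]
  refine mul_le_mul_of_nonneg_left ?_ (inv_nonneg.2 (norm_nonneg _))
  rw [pE_eq, sum_mul]
  refine (norm_sum_le _ _).trans (sum_le_sum fun ω _ => ?_)
  split_ifs with h
  · rw [norm_mul, Complex.norm_real, Real.norm_of_nonneg (wtJ_nonneg hJ ω)]
    refine mul_le_mul_of_nonneg_left ?_ (wtJ_nonneg hJ ω)
    rw [norm_mul]
    have h5 : ‖avC n j' a' fun i => (w i : ℂ) * ch n b (-(r * i)) *
          (e (dl j r (RJ J ω) * (i - y0)) - 1)‖ ≤ 4 * Real.pi / 2 ^ b * av n j' a' w := by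
      unfold avC av
      rw [norm_div, norm_pow, Complex.norm_ofNat, mul_div_assoc']
      refine div_le_div_of_nonneg_right ?_ (by positivity)
      rw [mul_sum]
      refine (norm_sum_le _ _).trans (sum_le_sum fun i hi => ?_)
      rw [norm_mul, norm_mul, norm_ch, mul_one, Complex.norm_real, Real.norm_of_nonneg (hw i),
        mul_comm]
      refine mul_le_mul_of_nonneg_right ?_ (hw i)
      refine (norm_e_sub_one_le _).trans ?_
      have h6 := hin i hi
      have h7 : (y0 : ℝ) ≤ i := by exact_mod_cast h6.1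
      have h8 : (i : ℝ) < y0 + (2 ^ (n - j) : ℕ) := by exact_mod_cast h6.2
      rw [abs_of_nonneg (mul_nonneg (dl_nonneg j r _) (by linarith))]
      have h9 := dl_mul_le (n := n) (b := b) hj r (RJ J ω)
      have h10 : dl j r (RJ J ω) * (i - y0) ≤ dl j r (RJ J ω) * (2 ^ (n - j) : ℕ) :=
        mul_le_mul_of_nonneg_left (by linarith) (dl_nonneg j r _)
      calc 2 * Real.pi * (dl j r (RJ J ω) * (i - y0))
          ≤ 2 * Real.pi * (2 / 2 ^ b) :=
            mul_le_mul_of_nonneg_left (h10.trans h9) (by positivity)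
        _ = 4 * Real.pi / 2 ^ b := by ring
    calc ‖ccJ J ω‖ * _ ≤ 1 * _ := mul_le_mul (norm_ccJ_le hJ' ω) h5 (norm_nonneg _) zero_le_one
      _ = _ := one_mul _
  · simp

end

end Vale.Agent.P091.T.H120
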