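import Vale.Agent.P091.T.H120.Repn
import Vale.Agent.P091.T.H233.StageW
import Vale.Agent.P091.T.H587.FamY

/-! # P091, row E1-B (REPZ): the coefficients of a stage (weights `H233.wtZ`, both rules)

`t` = stage of `H233.pdZ`, `κ` = class, `w` = activation node, `i : ZMod (2 ^ (n + b))` = list
element, `q` = value, `x` = leaf. -/

set_option autoImplicit false

open Finset

namespace Vale.Agent.P091.T.H120

open Vale.Agent.P091.Spec (e nd avC av)
open Vale.Agent.P065.Ent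
open Vale.Agent.P091.H413 Vale.Agent.P091.T.H350
open Vale.Agent.P091.T.H522 (em lo)

noncomputable section

variable {n b : ℕ}

/-! ## general set of shifts -/

open Classical in
/-- weight of the element `i`, all shifts in `E` -/
def wE (J : List (Un n b)) (j : ℕ) (E : Finset (ZMod (2 ^ (n + b - j)))) (r i : ZMod (2 ^ (n + b))) :
    ℝ := ∑ ω : QJ J, if rd n b j (RJ J ω) ∈ E ∧
      em (n + b) j (rd n b j r + rd n b j (RJ J ω)) = i then wtJ J ω else 0

open Classical in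
def gE (J : List (Un n b)) (j : ℕ) (E : Finset (ZMod (2 ^ (n + b - j)))) (r i : ZMod (2 ^ (n + b)))
    (q : QJ J) (x : ℕ) : ℂ :=
  (4 * phiJ J j E)⁻¹ * ∑ ω : QJ J, if rd n b j (RJ J ω) ∈ E ∧
      em (n + b) j (rd n b j r + rd n b j (RJ J ω)) = i then
      (wtJ J ω : ℂ) * psiJ J ω q * e (-dl j r (RJ J ω) * x) else 0

open Classical in
def cE' (J : List (Un n b)) (j : ℕ) (E : Finset (ZMod (2 ^ (n + b - j))))
    (r i : ZMod (2 ^ (n + b))) : ℂ :=
  (4 * phiJ J j E)⁻¹ * ∑ ω : QJ J, if rd n b j (RJ J ω) ∈ E ∧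
      em (n + b) j (rd n b j r + rd n b j (RJ J ω)) = i then
      (wtJ J ω : ℂ) * ccJ J ω else 0

theorem wE_nonneg {J : List (Un n b)} (hJ : ∀ k ∈ J, IsProb k.P) (j : ℕ)
    (E : Finset (ZMod (2 ^ (n + b - j)))) (r i : ZMod (2 ^ (n + b))) : 0 ≤ wE J j E r i := by
  classical
  unfold wE
  refine sum_nonneg fun ω _ => ?_
  split_ifs
  · exact wtJ_nonneg hJ ω
  · exact le_rfl

private theorem inv_le {φ : ℂ} (hφ : 1 / 4 ≤ ‖φ‖) : ‖(4 * φ)⁻¹‖ ≤ 1 := by
  rw [norm_inv, norm_mul, Complex.norm_ofNat]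
  have : (1 : ℝ) ≤ 4 * ‖φ‖ := by linarith
  exact inv_le_one_of_one_le₀ this

theorem norm_gE_le {J : List (Un n b)} (hJ : ∀ k ∈ J, IsProb k.P) {j : ℕ}
    {E : Finset (ZMod (2 ^ (n + b - j)))} (hφ : 1 / 4 ≤ ‖phiJ J j E‖) (r i : ZMod (2 ^ (n + b)))
    (q : QJ J) (x : ℕ) : ‖gE J j E r i q x‖ ≤ wE J j E r i := by
  classical
  unfold gE
  rw [norm_mul]
  refine (mul_le_of_le_one_left (norm_nonneg _) (inv_le hφ)).trans ?_
  unfold wE
  refine (norm_sum_le _ _).trans (sum_le_sum fun ω _ => ?_)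
  split_ifs
  · rw [norm_mul, norm_mul, norm_psiJ, norm_e, Complex.norm_real,
      Real.norm_of_nonneg (wtJ_nonneg hJ ω), mul_one, mul_one]
  · rw [norm_zero]

theorem norm_cE_le {J : List (Un n b)} (hJ : ∀ k ∈ J, IsProb k.P) (hJ' : ∀ k ∈ J, IsProb k.ρ)
    {j : ℕ} {E : Finset (ZMod (2 ^ (n + b - j)))} (hφ : 1 / 4 ≤ ‖phiJ J j E‖)
    (r i : ZMod (2 ^ (n + b))) : ‖cE' J j E r i‖ ≤ wE J j E r i := by
  classical
  unfold cE'
  rw [norm_mul]
  refine (mul_le_of_le_one_left (norm_nonneg _) (inv_le hφ)).trans ?_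
  unfold wE
  refine (norm_sum_le _ _).trans (sum_le_sum fun ω _ => ?_)
  split_ifs
  · rw [norm_mul, Complex.norm_real, Real.norm_of_nonneg (wtJ_nonneg hJ ω)]
    exact mul_le_of_le_one_right (wtJ_nonneg hJ ω) (norm_ccJ_le hJ' ω)
  · rw [norm_zero]

theorem sum_cE' {J : List (Un n b)} {j : ℕ} {E : Finset (ZMod (2 ^ (n + b - j)))}
    (hφ : phiJ J j E ≠ 0) (r : ZMod (2 ^ (n + b))) : ∑ i, cE' J j E r i = 1 / 4 := by
  classical
  unfold cE'
  rw [← mul_sum, sum_comm]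
  have h1 : ∑ ω : QJ J, ∑ i : ZMod (2 ^ (n + b)), (if rd n b j (RJ J ω) ∈ E ∧
      em (n + b) j (rd n b j r + rd n b j (RJ J ω)) = i then
      (wtJ J ω : ℂ) * ccJ J ω else 0) = phiJ J j E := by
    unfold phiJ
    refine sum_congr rfl fun ω _ => ?_
    by_cases h : rd n b j (RJ J ω) ∈ E
    · simp only [h, true_and, if_true]
      rw [sum_ite_eq univ (em (n + b) j (rd n b j r + rd n b j (RJ J ω))) fun _ =>
        (wtJ J ω : ℂ) * ccJ J ω, if_pos (mem_univ _)]
    · simp only [h, false_and, if_false, sum_const_zero]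
  rw [h1]
  field_simp

theorem gE_rep {J : List (Un n b)} (hJ : ∀ k ∈ J, IsProb k.P) (hJ' : ∀ k ∈ J, IsProb k.ρ)
    {j : ℕ} {E : Finset (ZMod (2 ^ (n + b - j)))} (hφ : 1 / 4 ≤ ‖phiJ J j E‖)
    {j' a' : ℕ} (hjj : j ≤ j') (hj' : j' ≤ n) (r i : ZMod (2 ^ (n + b))) {x y : ℕ}
    (hx : x ∈ nd n j' a') (hy : y ∈ nd n j' a') :
    ‖(∑ q : QJ J, gE J j E r i q x * (kerJ J y q : ℂ) * ch n b (-(i * y))) -
      cE' J j E r i * ch n b (-(r * y))‖ ≤
      4 * Real.pi / 2 ^ b / 2 ^ (j' - j) * wE J j E r i := by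
  classical
  have hj : j ≤ n := hjj.trans hj'
  have hxy : |(y : ℝ) - x| ≤ 2 ^ (n - j') := by
    unfold nd at hx hy
    rw [mem_Ico, add_mul, one_mul] at hx hy
    have h1 : (y : ℤ) - x ≤ 2 ^ (n - j') := by
      have := hx.1; have := hy.2; zify at *; linarith
    have h2 : (x : ℤ) - y ≤ 2 ^ (n - j') := by
      have := hy.1; have := hx.2; zify at *; linarith
    rw [abs_le]
    constructor
    · have : ((x : ℤ) : ℝ) - y ≤ 2 ^ (n - j') := by exact_mod_cast h2
      push_cast at this; linarith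
    · have : ((y : ℤ) : ℝ) - x ≤ 2 ^ (n - j') := by exact_mod_cast h1
      push_cast at this; linarith
  have hdl : ∀ ω : QJ J, ‖e (dl j r (RJ J ω) * (y - x)) - 1‖ ≤
      4 * Real.pi / 2 ^ b / 2 ^ (j' - j) := by
    intro ω
    refine (norm_e_sub_one_le _).trans ?_
    rw [abs_mul, abs_of_nonneg (dl_nonneg j _ _)]
    have h1 := dl_mul_le (n := n) (b := b) hj r (RJ J ω)
    push_cast at h1
    have h2 : (2 : ℝ) ^ (n - j) = 2 ^ (n - j') * 2 ^ (j' - j) := by
      rw [← pow_add]; congr 1; omega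
    rw [h2] at h1
    have h3 : dl j r (RJ J ω) * |(y : ℝ) - x| ≤ 2 / 2 ^ b / 2 ^ (j' - j) := by
      rw [le_div_iff₀ (by positivity)]
      refine le_trans ?_ h1
      rw [mul_assoc]
      refine mul_le_mul_of_nonneg_left ?_ (dl_nonneg j _ _)
      exact mul_le_mul_of_nonneg_right hxy (by positivity)
    calc 2 * Real.pi * (dl j r (RJ J ω) * |(y : ℝ) - x|)
        ≤ 2 * Real.pi * (2 / 2 ^ b / 2 ^ (j' - j)) :=
          mul_le_mul_of_nonneg_left h3 (by positivity)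
      _ = _ := by ring
  have hmain : (∑ q : QJ J, gE J j E r i q x * (kerJ J y q : ℂ) * ch n b (-(i * y))) -
      cE' J j E r i * ch n b (-(r * y)) =
      (4 * phiJ J j E)⁻¹ *
      ∑ ω : QJ J, if rd n b j (RJ J ω) ∈ E ∧
        em (n + b) j (rd n b j r + rd n b j (RJ J ω)) = i then
        (wtJ J ω : ℂ) * ccJ J ω * ch n b (-(r * y)) *
          (e (dl j r (RJ J ω) * (y - x)) - 1) else 0 := by
    have h1 : (∑ q : QJ J, gE J j E r i q x * (kerJ J y q : ℂ) * ch n b (-(i * y))) =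
        (4 * phiJ J j E)⁻¹ *
        ∑ ω : QJ J, if rd n b j (RJ J ω) ∈ E ∧
        em (n + b) j (rd n b j r + rd n b j (RJ J ω)) = i then
        (wtJ J ω : ℂ) * ((∑ q : QJ J, (kerJ J y q : ℂ) * psiJ J ω q) *
          (e (-dl j r (RJ J ω) * x) * ch n b (-(i * y)))) else 0 := by
      unfold gE
      simp only [mul_assoc, sum_mul, ← mul_sum]
      congr 1
      rw [sum_comm]
      refine sum_congr rfl fun ω _ => ?_
      split_ifs
      · rw [mul_sum]
        exact sum_congr rfl fun q _ => by ring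
      · simp
    rw [h1]
    unfold cE'
    rw [mul_assoc, ← mul_sub, sum_mul, ← sum_sub_distrib]
    congr 1
    refine sum_congr rfl fun ω _ => ?_
    split_ifs with h
    · have h2 := ch_split (hj.trans (Nat.le_add_right n b)) r (RJ J ω) y
      rw [h.2] at h2
      have h3 : e (-dl j r (RJ J ω) * x) =
          e (-dl j r (RJ J ω) * y) * e (dl j r (RJ J ω) * (y - x)) := by
        rw [← e_add]; congr 1; ring
      rw [sum_psi_ker, h3, h2]
      ring
    · simp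
  rw [hmain, norm_mul]
  refine (mul_le_of_le_one_left (norm_nonneg _) (inv_le hφ)).trans ?_
  unfold wE
  rw [mul_sum]
  refine (norm_sum_le _ _).trans (sum_le_sum fun ω _ => ?_)
  split_ifs
  · rw [norm_mul, norm_mul, norm_mul, norm_ch, mul_one, Complex.norm_real,
      Real.norm_of_nonneg (wtJ_nonneg hJ ω)]
    have h6 := norm_ccJ_le hJ' ω
    have h7 := wtJ_nonneg hJ ω
    have h8 := hdl ω
    calc wtJ J ω * ‖ccJ J ω‖ * ‖e (dl j r (RJ J ω) * (y - x)) - 1‖
        ≤ wtJ J ω * 1 * (4 * Real.pi / 2 ^ b / 2 ^ (j' - j)) :=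
          mul_le_mul (mul_le_mul_of_nonneg_left h6 h7) h8 (norm_nonneg _) (by linarith)
      _ = _ := by ring
  · rw [norm_zero, mul_zero]

/-- the kernel of the values is `kerL` -/
theorem kerJ_eq_kerL (J : List (Un n b)) (q : QJ J) (y : ℕ) :
    kerJ J y q = H587.kerL J q (y : ZMod (2 ^ (n + b))) := by
  rfl

/-! ## the stage `t` -/

variable {C1 D : ℝ} {ι : Type} [Fintype ι] (d : ZData C1 D n b ι) (A : ℝ)
  (J : List (Un n b)) (j0 a0 : ℕ)

open Classical in
/-- shifts used by the stage `t` at the node `w` for the class `κ` -/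
def ES (t : ℕ) (w : Node) (κ : ι) : Finset (ZMod (2 ^ (n + b - (j0 + w.length)))) :=
  univ.filter fun s => H233.PExpl d A J j0 a0 t w κ (rd n b (j0 + w.length) (d.r κ) + s)

theorem wtZ_eq (t : ℕ) (κ : ι) (w : Node) (i : ZMod (2 ^ (n + b))) :
    H233.wtZ d A J j0 a0 t κ w i =
      wE J (j0 + w.length) (ES d A J j0 a0 t w κ) (d.r κ) i := by
  classical
  unfold H233.wtZ wE ES
  simp only [pj_eq, mem_filter, mem_univ, true_and]
  have h1 : ∀ s : ZMod (2 ^ (n + b - (j0 + w.length))),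
      (if em (n + b) (j0 + w.length) s = i ∧ H233.PExpl d A J j0 a0 t w κ s then
        ∑ ω : QJ J, (if rd n b (j0 + w.length) (RJ J ω) =
          s - rd n b (j0 + w.length) (d.r κ) then wtJ J ω else 0) else 0) =
      ∑ ω : QJ J, if s = rd n b (j0 + w.length) (d.r κ) + rd n b (j0 + w.length) (RJ J ω) then
        (if em (n + b) (j0 + w.length) s = i ∧ H233.PExpl d A J j0 a0 t w κ s then
          wtJ J ω else 0) else 0 := by
    intro s
    by_cases h : em (n + b) (j0 + w.length) s = i ∧ H233.PExpl d A J j0 a0 t w κ s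
    · simp only [if_pos h]
      refine sum_congr rfl fun ω _ => ?_
      have h2 : (rd n b (j0 + w.length) (RJ J ω) = s - rd n b (j0 + w.length) (d.r κ)) ↔
          (s = rd n b (j0 + w.length) (d.r κ) + rd n b (j0 + w.length) (RJ J ω)) := by
        constructor
        · intro h'; rw [h']; ring
        · intro h'; rw [h']; ring
      simp only [h2]
    · simp only [if_neg h, ite_self, sum_const_zero]
  rw [sum_congr rfl fun s _ => h1 s, sum_comm]
  refine sum_congr rfl fun ω _ => ?_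
  rw [sum_ite_eq' univ (rd n b (j0 + w.length) (d.r κ) + rd n b (j0 + w.length) (RJ J ω)),
    if_pos (mem_univ _)]
  exact if_congr and_comm rfl rfl

/-- the mass of the shifts of a class activated at the node is at least `3/8` -/
theorem sum_ES_ge {J : List (Un n b)} (hJ : ∀ k ∈ J, IsProb k.P) {t : ℕ} {κ : ι} {w : Node}
    (h : κ ∈ (H233.pdZ d A J j0 a0).new w t) :
    3 / 8 ≤ ∑ s ∈ ES d A J j0 a0 t w κ, pj J (j0 + w.length) s := by
  classical
  refine (H233.sum_wtZ_ge d A j0 a0 hJ h).trans (le_of_eq ?_)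
  rw [H233.sum_wtZ]
  unfold ES
  rw [sum_filter]
  refine (Fintype.sum_equiv (Equiv.addLeft (rd n b (j0 + w.length) (d.r κ))) _ _ fun s => ?_).symm
  have h1 : Equiv.addLeft (rd n b (j0 + w.length) (d.r κ)) s -
      rd n b (j0 + w.length) (d.r κ) = s := by
    rw [Equiv.coe_addLeft, add_sub_cancel_left]
  rw [h1]
  rfl

/-- **(5) for the stages** -/
theorem exists_phi_ge' {c : ℝ} (hc : 0 < c) : ∃ D0 : ℝ, ∀ (D : ℝ) {n b : ℕ} {C1 : ℝ} {ι : Type}
    [Fintype ι] (d : ZData C1 D n b ι) (A : ℝ) (J : List (Un n b)) (j0 a0 : ℕ) (Y : Finset ℕ),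
    D0 ≤ D → J.length ≤ qm D → (∀ u ∈ J, u.Ok (ep c D) D Y) →
    ∀ (t : ℕ) (κ : ι) (w : Node), κ ∈ (H233.pdZ d A J j0 a0).new w t →
      1 / 4 ≤ ‖phiJ J (j0 + w.length) (ES d A J j0 a0 t w κ)‖ := by
  obtain ⟨D0, hD0⟩ := exists_qm_ep hc
  refine ⟨max D0 1, fun D n b C1 ι _ d A J j0 a0 Y hD hq hJ t κ w hκ => ?_⟩
  have h1 := norm_phiJ_ge hJ (j0 + w.length) (ES d A J j0 a0 t w κ)
  have hx := sum_ES_ge d A j0 a0 (fun u hu => (hJ u hu).P1) hκ
  have h2 := hD0 D ((le_max_left _ _).trans hD)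
  have h3 : ((J.length : ℕ) : ℝ) ≤ ((qm D : ℕ) : ℝ) := by exact_mod_cast hq
  have hlog : 0 ≤ Real.log D := Real.log_nonneg ((le_max_right _ _).trans hD)
  have h4 : 0 ≤ ep c D := Real.rpow_nonneg hlog _
  have h5 : (J.length : ℝ) ^ 2 * ep c D ≤ ((qm D : ℕ) : ℝ) ^ 2 * ep c D :=
    mul_le_mul_of_nonneg_right (pow_le_pow_left₀ (Nat.cast_nonneg _) h3 2) h4
  linarith

open Classical in
/-- **coefficient of the list element `i` on the value `q`**, for `XW.cf` -/
def gW (t : ℕ) (κ : ι) (w : Node) (i : ZMod (2 ^ (n + b))) (q : QJ J) (x : Node) : ℂ :=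
  if κ ∈ (H233.pdZ d A J j0 a0).new w t then
    d.A κ (H233.ia a0 x) * gE J (j0 + w.length) (ES d A J j0 a0 t w κ) (d.r κ) i q (H233.ia a0 x)
  else 0

open Classical in
/-- **coefficient of the true letter**, `∑_i = 1/4` -/
def kW (t : ℕ) (κ : ι) (w : Node) (i : ZMod (2 ^ (n + b))) : ℂ :=
  if κ ∈ (H233.pdZ d A J j0 a0).new w t then
    cE' J (j0 + w.length) (ES d A J j0 a0 t w κ) (d.r κ) i
  else 0

variable {d A J j0 a0}

/-- the hypothesis of all the lemmas below -/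
def PhiGe (d : ZData C1 D n b ι) (A : ℝ) (J : List (Un n b)) (j0 a0 : ℕ) : Prop :=
  ∀ (t : ℕ) (κ : ι) (w : Node), κ ∈ (H233.pdZ d A J j0 a0).new w t →
      1 / 4 ≤ ‖phiJ J (j0 + w.length) (ES d A J j0 a0 t w κ)‖

/-- (1) for ALL arguments: the hypothesis `hγ` of `XW.toLeaf` -/
theorem norm_gW_le (hJ : ∀ k ∈ J, IsProb k.P) (hφ : PhiGe d A J j0 a0) (t : ℕ) (κ : ι)
    (w : Node) (i : ZMod (2 ^ (n + b))) (q : QJ J) (x : Node) :
    ‖gW d A J j0 a0 t κ w i q x‖ ≤ d.a κ (H233.ia a0 x) * H233.wtZ d A J j0 a0 t κ w i := by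
  classical
  unfold gW
  split_ifs with h
  · rw [norm_mul, wtZ_eq]
    exact mul_le_mul (d.A_le κ _) (norm_gE_le hJ (hφ t κ w h) _ _ _ _) (norm_nonneg _)
      (d.a_nonneg κ _)
  · rw [norm_zero]
    exact mul_nonneg (d.a_nonneg κ _) (H233.wtZ_nonneg d A j0 a0 hJ t κ w i)

/-- (2) for ALL arguments -/
theorem norm_kW_le (hJ : ∀ k ∈ J, IsProb k.P) (hJ' : ∀ k ∈ J, IsProb k.ρ)
    (hφ : PhiGe d A J j0 a0) (t : ℕ) (κ : ι) (w : Node) (i : ZMod (2 ^ (n + b))) :
    ‖kW d A J j0 a0 t κ w i‖ ≤ H233.wtZ d A J j0 a0 t κ w i := by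
  classical
  unfold kW
  split_ifs with h
  · rw [wtZ_eq]
    exact norm_cE_le hJ hJ' (hφ t κ w h) _ _
  · rw [norm_zero]
    exact H233.wtZ_nonneg d A j0 a0 hJ t κ w i

/-- (2) -/
theorem sum_kW (hφ : PhiGe d A J j0 a0) {t : ℕ} {κ : ι} {w : Node}
    (h : κ ∈ (H233.pdZ d A J j0 a0).new w t) : ∑ i, kW d A J j0 a0 t κ w i = 1 / 4 := by
  classical
  unfold kW
  simp only [if_pos h]
  refine sum_cE' (fun h0 => ?_) _
  have := hφ t κ w h
  rw [h0, norm_zero] at this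
  norm_num at this

/-- a leaf below `v` of the relative tree lies in the node of `v` -/
theorem ia_mem_nd' {j0 a0 : ℕ} {v x : Node} (hvx : v <:+ x) (hx : j0 + x.length = n) :
    H233.ia a0 x ∈ nd n (j0 + v.length) (H233.ia a0 v) := by
  obtain ⟨l, rfl⟩ := hvx
  exact ia_mem_nd (a0 := a0) l v (by rw [List.length_append] at hx; omega)

/-- **(3)** `w` = activation node, `v` at or below `w`, `x, y` leaves below `v` -/
theorem gW_rep (hJ : ∀ k ∈ J, IsProb k.P) (hJ' : ∀ k ∈ J, IsProb k.ρ)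
    (hφ : PhiGe d A J j0 a0) (t : ℕ) (κ : ι) {w v x y : Node} (hwv : w.length ≤ v.length)
    (hvx : v <:+ x) (hvy : v <:+ y) (hx : j0 + x.length = n) (hy : j0 + y.length = n)
    (i : ZMod (2 ^ (n + b))) :
    ‖(∑ q : QJ J, gW d A J j0 a0 t κ w i q x * (H587.kerL J q (H233.ia a0 y : ℕ) : ℂ) *
        ch n b (-(i * (H233.ia a0 y : ℕ)))) -
      d.A κ (H233.ia a0 x) * kW d A J j0 a0 t κ w i * ch n b (-(d.r κ * (H233.ia a0 y : ℕ)))‖ ≤
      4 * Real.pi / 2 ^ b / 2 ^ (v.length - w.length) *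
        (d.a κ (H233.ia a0 x) * H233.wtZ d A J j0 a0 t κ w i) := by
  classical
  unfold gW kW
  split_ifs with h
  · have h1 := gE_rep hJ hJ' (hφ t κ w h) (j' := j0 + v.length) (a' := H233.ia a0 v)
      (by omega) (by have := hvx.length_le; omega) (d.r κ) i (ia_mem_nd' hvx hx) (ia_mem_nd' hvy hy)
    rw [show j0 + v.length - (j0 + w.length) = v.length - w.length by omega] at h1
    have h2 : (∑ q : QJ J, d.A κ (H233.ia a0 x) *
        gE J (j0 + w.length) (ES d A J j0 a0 t w κ) (d.r κ) i q (H233.ia a0 x) *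
        (H587.kerL J q (H233.ia a0 y : ℕ) : ℂ) * ch n b (-(i * (H233.ia a0 y : ℕ)))) -
      d.A κ (H233.ia a0 x) * cE' J (j0 + w.length) (ES d A J j0 a0 t w κ) (d.r κ) i *
        ch n b (-(d.r κ * (H233.ia a0 y : ℕ))) =
      d.A κ (H233.ia a0 x) *
      ((∑ q : QJ J, gE J (j0 + w.length) (ES d A J j0 a0 t w κ) (d.r κ) i q (H233.ia a0 x) *
        (kerJ J (H233.ia a0 y) q : ℂ) * ch n b (-(i * (H233.ia a0 y : ℕ)))) -
      cE' J (j0 + w.length) (ES d A J j0 a0 t w κ) (d.r κ) i *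
        ch n b (-(d.r κ * (H233.ia a0 y : ℕ)))) := by
      rw [mul_sub, mul_sum]
      congr 1
      · refine sum_congr rfl fun q _ => ?_
        rw [kerJ_eq_kerL]
        ring
      · ring
    rw [h2, norm_mul, wtZ_eq]
    calc ‖d.A κ (H233.ia a0 x)‖ * _ ≤ d.a κ (H233.ia a0 x) *
          (4 * Real.pi / 2 ^ b / 2 ^ (v.length - w.length) *
            wE J (j0 + w.length) (ES d A J j0 a0 t w κ) (d.r κ) i) :=
          mul_le_mul (d.A_le κ _) h1 (norm_nonneg _) (d.a_nonneg κ _)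
      _ = _ := by ring
  · simp only [zero_mul, mul_zero, sum_const_zero, sub_zero, norm_zero]
    have h1 := H233.wtZ_nonneg d A j0 a0 hJ t κ w i
    have h2 := d.a_nonneg κ (H233.ia a0 x)
    positivity

end

end Vale.Agent.P091.T.H120
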