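import Vale.Agent.P091.T.H120.Repz
import Vale.Agent.P091.T.Rel

/-! # P091, row E1-B (REPZ): `|φ| ≥ 1/4`, the forms over the relative list tree -/

set_option autoImplicit false

open Finset

namespace Vale.Agent.P091.T.H120

open Vale.Agent.P091.Spec (e nd avC av)
open Vale.Agent.P065.Ent
open Vale.Agent.P091.H413 Vale.Agent.P091.T.H350
open Vale.Agent.P091.T.H522 (em lo)

noncomputable section

/-- `(qm D)² ep c D ≤ 1/4` for large `D` -/
theorem exists_qm_ep {c : ℝ} (hc : 0 < c) :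
    ∃ D0 : ℝ, ∀ D, D0 ≤ D → ((qm D : ℕ) : ℝ) ^ 2 * ep c D ≤ 1 / 4 := by
  set ε : ℝ := c / 16 with hε
  have hε0 : 0 < ε := by positivity
  set K : ℝ := 2 / (Real.log 2 * ε) + 2 with hK
  have hl2 : 0 < Real.log 2 := Real.log_pos (by norm_num)
  have hK0 : 0 < K := by positivity
  set L0 : ℝ := max 1 ((4 * K ^ 8) ^ (2 / c)) with hL0
  refine ⟨Real.exp L0, fun D hD => ?_⟩
  have hDpos : 0 < D := (Real.exp_pos _).trans_le hD
  set L := Real.log D with hL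
  have hLL0 : L0 ≤ L := by
    rw [hL, Real.le_log_iff_exp_le hDpos]; exact hD
  have hL1 : 1 ≤ L := (le_max_left _ _).trans hLL0
  have hLpos : 0 < L := by linarith
  have hlogL : 0 ≤ Real.log L := Real.log_nonneg hL1
  have h1 : ((ll D : ℕ) : ℝ) ≤ K * L ^ ε := by
    unfold ll
    rw [← hL]
    push_cast
    have h2 : 0 ≤ 2 * Real.logb 2 L := by
      unfold Real.logb; positivity
    have h3 := (Nat.ceil_lt_add_one h2).le
    have h4 : Real.log L ≤ L ^ ε / ε := Real.log_le_rpow_div hLpos.le hε0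
    have h5 : 2 * Real.logb 2 L ≤ 2 / (Real.log 2 * ε) * L ^ ε := by
      unfold Real.logb
      have : 2 * (Real.log L / Real.log 2) ≤ 2 * ((L ^ ε / ε) / Real.log 2) := by gcongr
      refine this.trans (le_of_eq ?_)
      field_simp
    have h6 : (1 : ℝ) ≤ L ^ ε := Real.one_le_rpow hL1 hε0.le
    rw [hK]
    nlinarith
  have h2 : ((qm D : ℕ) : ℝ) ^ 2 ≤ K ^ 8 * L ^ (c / 2) := by
    unfold qm
    push_cast
    rw [← pow_mul]
    have h3 : ((ll D : ℕ) : ℝ) ^ (4 * 2) ≤ (K * L ^ ε) ^ (4 * 2) :=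
      pow_le_pow_left₀ (Nat.cast_nonneg _) h1 _
    refine h3.trans (le_of_eq ?_)
    rw [mul_pow, ← Real.rpow_natCast (L ^ ε), ← Real.rpow_mul hLpos.le]
    norm_num [hε]
    left; congr 1; ring
  have h3 : ep c D = L ^ (-c) := rfl
  rw [h3]
  have h4 : L ^ (c / 2) * L ^ (-c) = (L ^ (c / 2))⁻¹ := by
    rw [← Real.rpow_add hLpos, ← Real.rpow_neg hLpos.le]; congr 1; ring
  have h5 : 4 * K ^ 8 ≤ L ^ (c / 2) := by
    have h6 : (4 * K ^ 8) ^ (2 / c) ≤ L := (le_max_right _ _).trans hLL0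
    have h7 : ((4 * K ^ 8) ^ (2 / c)) ^ (c / 2) ≤ L ^ (c / 2) :=
      Real.rpow_le_rpow (by positivity) h6 (by positivity)
    rw [← Real.rpow_mul (by positivity)] at h7
    have h8 : 2 / c * (c / 2) = 1 := by field_simp
    rwa [h8, Real.rpow_one] at h7
  calc ((qm D : ℕ) : ℝ) ^ 2 * L ^ (-c) ≤ K ^ 8 * L ^ (c / 2) * L ^ (-c) :=
        mul_le_mul_of_nonneg_right h2 (by positivity)
    _ = K ^ 8 * (L ^ (c / 2))⁻¹ := by rw [mul_assoc, h4]
    _ ≤ 1 / 4 := by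
        rw [← div_eq_mul_inv, div_le_iff₀ (by positivity)]
        linarith

/-- **(5)** an explained class has `|φ| ≥ 1/4` -/
theorem exists_phi_ge {c : ℝ} (hc : 0 < c) : ∃ D0 : ℝ, ∀ (D : ℝ) {n b : ℕ} {C1 : ℝ} {ι : Type}
    [Fintype ι] (d : ZData C1 D n b ι) (J : List (Un n b)) (Y : Finset ℕ) (θ : ℝ) (j a : ℕ)
    (k : ι), D0 ≤ D → J.length ≤ qm D → (∀ u ∈ J, u.Ok (ep c D) D Y) →
    3 / 8 ≤ xp d J θ j a k → 1 / 4 ≤ ‖phiJ J j (EZ d J θ j a k)‖ := by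
  obtain ⟨D0, hD0⟩ := exists_qm_ep hc
  refine ⟨max D0 1, fun D n b C1 ι _ d J Y θ j a k hD hq hJ hx => ?_⟩
  have h1 := norm_phiJ_ge hJ j (EZ d J θ j a k)
  rw [← xp_eq] at h1
  have h2 := hD0 D ((le_max_left _ _).trans hD)
  have h3 : ((J.length : ℕ) : ℝ) ≤ ((qm D : ℕ) : ℝ) := by exact_mod_cast hq
  have hlog : 0 ≤ Real.log D := Real.log_nonneg ((le_max_right _ _).trans hD)
  have h4 : 0 ≤ ep c D := Real.rpow_nonneg hlog _
  have h5 : (J.length : ℝ) ^ 2 * ep c D ≤ ((qm D : ℕ) : ℝ) ^ 2 * ep c D :=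
    mul_le_mul_of_nonneg_right (pow_le_pow_left₀ (Nat.cast_nonneg _) h3 2) h4
  linarith

/-! ## relative list tree -/

variable {n b : ℕ} {C1 D : ℝ} {ι : Type} [Fintype ι] (d : ZData C1 D n b ι)

/-- `γ κ w i q x` for 233's `XW.cf` -/
def gN (J : List (Un n b)) (θ : ℝ) (j0 a0 : ℕ) (k : ι) (w : Node) (i : ZMod (2 ^ (n + b)))
    (q : QJ J) (x : Node) : ℂ := gz d J θ (j0 + w.length) (ia a0 w) k i q (ia a0 x)

/-- `c κ w i x` -/
def cN (J : List (Un n b)) (θ : ℝ) (j0 a0 : ℕ) (k : ι) (w : Node) (i : ZMod (2 ^ (n + b)))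
    (x : Node) : ℂ := cz d J θ (j0 + w.length) (ia a0 w) k i (ia a0 x)

/-- `wt κ w i` -/
def wN (J : List (Un n b)) (θ : ℝ) (j0 a0 : ℕ) (k : ι) (w : Node) (i : ZMod (2 ^ (n + b))) : ℝ :=
  wz d J θ (j0 + w.length) (ia a0 w) k i

/-- `ref w i` -/
def rN (J : List (Un n b)) (j0 a0 : ℕ) (w : Node) (i : ZMod (2 ^ (n + b))) : ℝ :=
  alz d J (j0 + w.length) (ia a0 w) i

variable {d}

/-- a leaf of the relative tree below `v` lies in the node of `v` -/
theorem ia_mem_nd {j0 a0 : ℕ} (l : List Bool) (v : Node) (h : j0 + v.length + l.length = n) :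
    ia a0 (l ++ v) ∈ nd n (j0 + v.length) (ia a0 v) := by
  have h1 := ia_append a0 l v
  unfold nd
  rw [mem_Ico, show n - (j0 + v.length) = l.length by omega]
  constructor
  · rw [← h1]; exact Nat.div_mul_le_self _ _
  · rw [← h1, add_mul, one_mul]
    exact Nat.lt_div_mul_add (by positivity)

/-- (3) over the relative tree: `w` the activation node, `v` below `w`, `x, y` below `v` -/
theorem gN_rep {J : List (Un n b)} (hJ : ∀ k ∈ J, IsProb k.P) (hJ' : ∀ k ∈ J, IsProb k.ρ)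
    {θ : ℝ} {j0 a0 : ℕ} {k : ι} {w : Node}
    (hφ : 1 / 4 ≤ ‖phiJ J (j0 + w.length) (EZ d J θ (j0 + w.length) (ia a0 w) k)‖)
    {v : Node} (hwv : w.length ≤ v.length) (i : ZMod (2 ^ (n + b))) {x y : Node}
    (hx : ∃ l : List Bool, x = l ++ v ∧ j0 + v.length + l.length = n)
    (hy : ∃ l : List Bool, y = l ++ v ∧ j0 + v.length + l.length = n) :
    ‖(∑ q : QJ J, gN d J θ j0 a0 k w i q x * (kerJ J (ia a0 y) q : ℂ) *
        ch n b (-(i * (ia a0 y : ℕ)))) -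
      cN d J θ j0 a0 k w i x * ch n b (-(d.r k * (ia a0 y : ℕ)))‖ ≤
      4 * Real.pi / 2 ^ b / 2 ^ (v.length - w.length) *
        (d.a k (ia a0 x) * wN d J θ j0 a0 k w i) := by
  obtain ⟨l, rfl, hl⟩ := hx
  obtain ⟨l', rfl, hl'⟩ := hy
  have h := gz_rep (a' := ia a0 v) hJ hJ' hφ (j' := j0 + v.length) (by omega) (by omega) i
    (ia_mem_nd l v hl) (ia_mem_nd l' v hl')
  rw [show j0 + v.length - (j0 + w.length) = v.length - w.length by omega] at h
  exact h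

end

end Vale.Agent.P091.T.H120
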