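import Vale.Agent.P091.T.H120.Rep2

/-! # P091, row E1-B (REPZ): the coefficients of one class at its activation node

`(j, a)` = activation node, `k` = class, `θ` = threshold, list elements `i : ZMod (2 ^ (n + b))`. -/

set_option autoImplicit false

open Finset

namespace Vale.Agent.P091.T.H120

open Vale.Agent.P091.Spec (e nd avC av)
open Vale.Agent.P065.Ent
open Vale.Agent.P091.T.H522 (em lo)

noncomputable section

variable {n b : ℕ} {C1 D : ℝ} {ι : Type} [Fintype ι] (d : ZData C1 D n b ι)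

open Classical in
/-- the explained shifts of the class `k` -/
def EZ (J : List (Un n b)) (θ : ℝ) (j a : ℕ) (k : ι) : Finset (ZMod (2 ^ (n + b - j))) :=
  univ.filter fun s => pj J j s ≤ Real.exp θ * al d J j a (rd n b j (d.r k) + s)

theorem xp_eq (J : List (Un n b)) (θ : ℝ) (j a : ℕ) (k : ι) :
    xp d J θ j a k = ∑ s ∈ EZ d J θ j a k, pj J j s := by
  classical
  unfold xp EZ
  rw [sum_filter]

open Classical in
/-- weight of the list element `i` -/
def wz (J : List (Un n b)) (θ : ℝ) (j a : ℕ) (k : ι) (i : ZMod (2 ^ (n + b))) : ℝ :=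
  ∑ ω : QJ J, if rd n b j (RJ J ω) ∈ EZ d J θ j a k ∧
    em (n + b) j (rd n b j (d.r k) + rd n b j (RJ J ω)) = i then wtJ J ω else 0

open Classical in
/-- reference mass of the list element `i` -/
def alz (J : List (Un n b)) (j a : ℕ) (i : ZMod (2 ^ (n + b))) : ℝ :=
  ∑ κ : ZMod (2 ^ (n + b - j)), if em (n + b) j κ = i then al d J j a κ else 0

open Classical in
/-- coefficient on the x-side -/
def gz (J : List (Un n b)) (θ : ℝ) (j a : ℕ) (k : ι) (i : ZMod (2 ^ (n + b))) (q : QJ J)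
    (x : ℕ) : ℂ :=
  d.A k x / (4 * phiJ J j (EZ d J θ j a k)) *
    ∑ ω : QJ J, if rd n b j (RJ J ω) ∈ EZ d J θ j a k ∧
      em (n + b) j (rd n b j (d.r k) + rd n b j (RJ J ω)) = i then
      (wtJ J ω : ℂ) * psiJ J ω q * e (-dl j (d.r k) (RJ J ω) * x) else 0

open Classical in
/-- the coefficient of the true letter -/
def cz (J : List (Un n b)) (θ : ℝ) (j a : ℕ) (k : ι) (i : ZMod (2 ^ (n + b))) (x : ℕ) : ℂ :=
  d.A k x / (4 * phiJ J j (EZ d J θ j a k)) *
    ∑ ω : QJ J, if rd n b j (RJ J ω) ∈ EZ d J θ j a k ∧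
      em (n + b) j (rd n b j (d.r k) + rd n b j (RJ J ω)) = i then
      (wtJ J ω : ℂ) * ccJ J ω else 0

variable {d}

theorem wz_nonneg {J : List (Un n b)} (hJ : ∀ k ∈ J, IsProb k.P) (θ : ℝ) (j a : ℕ) (k : ι)
    (i : ZMod (2 ^ (n + b))) : 0 ≤ wz d J θ j a k i := by
  classical
  unfold wz
  refine sum_nonneg fun ω _ => ?_
  split_ifs
  · exact wtJ_nonneg hJ ω
  · exact le_rfl

/-- on the image of `em` the weight is `pj` on the explained pairs -/
theorem wz_em {j : ℕ} (hj : j ≤ n) (J : List (Un n b)) (θ : ℝ) (a : ℕ) (k : ι)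
    (κ : ZMod (2 ^ (n + b - j))) :
    wz d J θ j a k (em (n + b) j κ) = pE J j (EZ d J θ j a k) (d.r k) κ := by
  classical
  rw [pE_eq]
  unfold wz
  refine sum_congr rfl fun ω _ => ?_
  have h := (H522.em_inj (hj.trans (Nat.le_add_right n b))).eq_iff
    (a := rd n b j (d.r k) + rd n b j (RJ J ω)) (b := κ)
  simp only [h]

theorem wz_eq_zero {j : ℕ} (J : List (Un n b)) (θ : ℝ) (a : ℕ) (k : ι)
    {i : ZMod (2 ^ (n + b))} (hi : ∀ κ : ZMod (2 ^ (n + b - j)), em (n + b) j κ ≠ i) :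
    wz d J θ j a k i = 0 := by
  classical
  unfold wz
  exact sum_eq_zero fun ω _ => if_neg fun h => hi _ h.2

theorem sum_wz (J : List (Un n b)) (θ : ℝ) (j a : ℕ) (k : ι) :
    ∑ i, wz d J θ j a k i = xp d J θ j a k := by
  classical
  rw [xp_eq]
  unfold wz
  simp only [pj_eq]
  rw [sum_comm]
  conv_rhs => rw [sum_comm]
  refine sum_congr rfl fun ω _ => ?_
  rw [sum_ite_eq (EZ d J θ j a k) (rd n b j (RJ J ω)) fun _ => wtJ J ω]
  by_cases h : rd n b j (RJ J ω) ∈ EZ d J θ j a k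
  · simp only [h, true_and, if_true]
    rw [sum_ite_eq univ (em (n + b) j (rd n b j (d.r k) + rd n b j (RJ J ω))) fun _ => wtJ J ω,
      if_pos (mem_univ _)]
  · simp only [h, false_and, if_false, sum_const_zero]

theorem sum_pj {J : List (Un n b)} (hJ : ∀ k ∈ J, IsProb k.P) (j : ℕ) :
    ∑ s, pj J j s = 1 := by
  classical
  simp only [pj_eq]
  rw [sum_comm]
  have h1 : ∀ ω : QJ J, (∑ s, if rd n b j (RJ J ω) = s then wtJ J ω else 0) = wtJ J ω := by
    intro ω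
    rw [sum_ite_eq univ (rd n b j (RJ J ω)) fun _ => wtJ J ω, if_pos (mem_univ _)]
  rw [sum_congr rfl fun ω _ => h1 ω]
  exact sum_wt (P := fun k : Fin J.length => (J.get k).P)
    (fun k => (hJ _ (List.get_mem J k)).2)

theorem pj_nonneg {J : List (Un n b)} (hJ : ∀ k ∈ J, IsProb k.P) (j : ℕ)
    (s : ZMod (2 ^ (n + b - j))) : 0 ≤ pj J j s := by
  rw [pj_eq]
  refine sum_nonneg fun ω _ => ?_
  split_ifs
  · exact wtJ_nonneg hJ ω
  · exact le_rfl

theorem sum_wz_le {J : List (Un n b)} (hJ : ∀ k ∈ J, IsProb k.P) (θ : ℝ) (j a : ℕ) (k : ι) :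
    ∑ i, wz d J θ j a k i ≤ 1 := by
  rw [sum_wz, xp_eq, ← sum_pj hJ j]
  exact sum_le_sum_of_subset_of_nonneg (subset_univ _) fun s _ _ => pj_nonneg hJ j s

theorem av_nonneg' {F : ℕ → ℝ} (hF : ∀ i, 0 ≤ F i) (j a : ℕ) : 0 ≤ av n j a F := by
  unfold av
  exact div_nonneg (sum_nonneg fun i _ => hF i) (by positivity)

theorem al_nonneg {J : List (Un n b)} (hJ : ∀ k ∈ J, IsProb k.P) (j a : ℕ)
    (κ : ZMod (2 ^ (n + b - j))) : 0 ≤ al d J j a κ := by
  unfold al
  exact sum_nonneg fun k _ => mul_nonneg (av_nonneg' (d.a_nonneg k) j a) (pj_nonneg hJ _ _)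

theorem alz_nonneg {J : List (Un n b)} (hJ : ∀ k ∈ J, IsProb k.P) (j a : ℕ)
    (i : ZMod (2 ^ (n + b))) : 0 ≤ alz d J j a i := by
  classical
  unfold alz
  refine sum_nonneg fun κ _ => ?_
  split_ifs
  · exact al_nonneg hJ j a κ
  · exact le_rfl

theorem sum_alz (J : List (Un n b)) (j a : ℕ) : ∑ i, alz d J j a i = ∑ κ, al d J j a κ := by
  classical
  unfold alz
  rw [sum_comm]
  refine sum_congr rfl fun κ _ => ?_
  rw [sum_ite_eq univ (em (n + b) j κ) fun _ => al d J j a κ, if_pos (mem_univ _)]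

theorem alz_em {j : ℕ} (hj : j ≤ n) (J : List (Un n b)) (a : ℕ) (κ : ZMod (2 ^ (n + b - j))) :
    alz d J j a (em (n + b) j κ) = al d J j a κ := by
  classical
  unfold alz
  have h : ∀ κ', (em (n + b) j κ' = em (n + b) j κ) ↔ κ' = κ := fun κ' =>
    (H522.em_inj (hj.trans (Nat.le_add_right n b))).eq_iff
  simp only [h]
  rw [sum_ite_eq' univ κ fun κ' => al d J j a κ', if_pos (mem_univ _)]

theorem sum_al {J : List (Un n b)} (hJ : ∀ k ∈ J, IsProb k.P) (j a : ℕ) :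
    ∑ κ, al d J j a κ = ∑ k, av n j a (d.a k) := by
  unfold al
  rw [sum_comm]
  refine sum_congr rfl fun k _ => ?_
  rw [← mul_sum]
  have : ∑ κ, pj J j (κ - rd n b j (d.r k)) = ∑ s, pj J j s :=
    Fintype.sum_equiv (Equiv.subRight (rd n b j (d.r k))) _ _ fun _ => rfl
  rw [this, sum_pj hJ, mul_one]

/-- `wz i ≤ e^θ alz i` -/
theorem wz_le {j : ℕ} (hj : j ≤ n) {J : List (Un n b)} (hJ : ∀ k ∈ J, IsProb k.P) (θ : ℝ)
    (a : ℕ) (k : ι) (i : ZMod (2 ^ (n + b))) :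
    wz d J θ j a k i ≤ Real.exp θ * alz d J j a i := by
  classical
  by_cases h : ∃ κ : ZMod (2 ^ (n + b - j)), em (n + b) j κ = i
  · obtain ⟨κ, rfl⟩ := h
    rw [wz_em hj, alz_em hj]
    unfold pE
    split_ifs with h1
    · unfold EZ at h1
      rw [mem_filter] at h1
      have h2 := h1.2
      rwa [add_sub_cancel] at h2
    · exact mul_nonneg (Real.exp_pos _).le (al_nonneg hJ j a κ)
  · rw [wz_eq_zero J θ a k fun κ hκ => h ⟨κ, hκ⟩]
    exact mul_nonneg (Real.exp_pos _).le (alz_nonneg hJ j a i)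

private theorem coef_le {A φ : ℂ} {a : ℝ} (hA : ‖A‖ ≤ a) (hφ : 1 / 4 ≤ ‖φ‖) :
    ‖A / (4 * φ)‖ ≤ a := by
  have h4 : (1 : ℝ) ≤ ‖4 * φ‖ := by
    rw [norm_mul, Complex.norm_ofNat]; linarith
  rw [norm_div, div_le_iff₀ (by linarith)]
  have ha : 0 ≤ a := (norm_nonneg _).trans hA
  nlinarith

/-- (1) -/
theorem norm_gz_le {J : List (Un n b)} (hJ : ∀ k ∈ J, IsProb k.P) {θ : ℝ} {j a : ℕ} {k : ι}
    (hφ : 1 / 4 ≤ ‖phiJ J j (EZ d J θ j a k)‖) (i : ZMod (2 ^ (n + b))) (q : QJ J) (x : ℕ) :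
    ‖gz d J θ j a k i q x‖ ≤ d.a k x * wz d J θ j a k i := by
  classical
  unfold gz
  rw [norm_mul]
  refine mul_le_mul (coef_le (d.A_le k x) hφ) ?_ (norm_nonneg _) (d.a_nonneg k x)
  unfold wz
  refine (norm_sum_le _ _).trans (sum_le_sum fun ω _ => ?_)
  split_ifs
  · rw [norm_mul, norm_mul, norm_psiJ, norm_e, Complex.norm_real,
      Real.norm_of_nonneg (wtJ_nonneg hJ ω), mul_one, mul_one]
  · rw [norm_zero]

/-- (2) -/
theorem norm_cz_le {J : List (Un n b)} (hJ : ∀ k ∈ J, IsProb k.P) (hJ' : ∀ k ∈ J, IsProb k.ρ)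
    {θ : ℝ} {j a : ℕ} {k : ι} (hφ : 1 / 4 ≤ ‖phiJ J j (EZ d J θ j a k)‖)
    (i : ZMod (2 ^ (n + b))) (x : ℕ) :
    ‖cz d J θ j a k i x‖ ≤ d.a k x * wz d J θ j a k i := by
  classical
  unfold cz
  rw [norm_mul]
  refine mul_le_mul (coef_le (d.A_le k x) hφ) ?_ (norm_nonneg _) (d.a_nonneg k x)
  unfold wz
  refine (norm_sum_le _ _).trans (sum_le_sum fun ω _ => ?_)
  split_ifs
  · rw [norm_mul, Complex.norm_real, Real.norm_of_nonneg (wtJ_nonneg hJ ω)]
    exact mul_le_of_le_one_right (wtJ_nonneg hJ ω) (norm_ccJ_le hJ' ω)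
  · rw [norm_zero]

/-- (2) -/
theorem sum_cz {J : List (Un n b)} {θ : ℝ} {j a : ℕ} {k : ι}
    (hφ : phiJ J j (EZ d J θ j a k) ≠ 0) (x : ℕ) :
    ∑ i, cz d J θ j a k i x = d.A k x / 4 := by
  classical
  unfold cz
  rw [← mul_sum, sum_comm]
  have h1 : ∑ ω : QJ J, ∑ i : ZMod (2 ^ (n + b)), (if rd n b j (RJ J ω) ∈ EZ d J θ j a k ∧
      em (n + b) j (rd n b j (d.r k) + rd n b j (RJ J ω)) = i then
      (wtJ J ω : ℂ) * ccJ J ω else 0) = phiJ J j (EZ d J θ j a k) := by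
    unfold phiJ
    refine sum_congr rfl fun ω _ => ?_
    by_cases h : rd n b j (RJ J ω) ∈ EZ d J θ j a k
    · simp only [h, true_and, if_true]
      rw [sum_ite_eq univ (em (n + b) j (rd n b j (d.r k) + rd n b j (RJ J ω))) fun _ =>
        (wtJ J ω : ℂ) * ccJ J ω, if_pos (mem_univ _)]
    · simp only [h, false_and, if_false, sum_const_zero]
  rw [h1]
  field_simp

/-- (3): the list element `i` of the class `k` is a multiple of the true letter, with a geometric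
error below the activation node -/
theorem gz_rep {J : List (Un n b)} (hJ : ∀ k ∈ J, IsProb k.P) (hJ' : ∀ k ∈ J, IsProb k.ρ)
    {θ : ℝ} {j a : ℕ} {k : ι} (hφ : 1 / 4 ≤ ‖phiJ J j (EZ d J θ j a k)‖)
    {j' a' : ℕ} (hjj : j ≤ j') (hj' : j' ≤ n) (i : ZMod (2 ^ (n + b))) {x y : ℕ}
    (hx : x ∈ nd n j' a') (hy : y ∈ nd n j' a') :
    ‖(∑ q : QJ J, gz d J θ j a k i q x * (kerJ J y q : ℂ) * ch n b (-(i * y))) -
      cz d J θ j a k i x * ch n b (-(d.r k * y))‖ ≤
      4 * Real.pi / 2 ^ b / 2 ^ (j' - j) * (d.a k x * wz d J θ j a k i) := by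
  classical
  have hj : j ≤ n := hjj.trans hj'
  have hxy : |(y : ℝ) - x| ≤ 2 ^ (n - j') := by
    unfold nd at hx hy
    rw [mem_Ico, add_mul, one_mul] at hx hy
    have h1 : (y : ℤ) - x ≤ 2 ^ (n - j') := by
      have := hx.1; have := hy.2; zify at *; linarith
    have h2 : (x : ℤ) - y ≤ 2 ^ (n - j') := by
      have := hy.1; have := hx.2; zify at *; linarith
    rw [abs_le]
    constructor
    · have : ((x : ℤ) : ℝ) - y ≤ 2 ^ (n - j') := by exact_mod_cast h2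
      push_cast at this; linarith
    · have : ((y : ℤ) : ℝ) - x ≤ 2 ^ (n - j') := by exact_mod_cast h1
      push_cast at this; linarith
  have hdl : ∀ ω : QJ J, ‖e (dl j (d.r k) (RJ J ω) * (y - x)) - 1‖ ≤
      4 * Real.pi / 2 ^ b / 2 ^ (j' - j) := by
    intro ω
    refine (norm_e_sub_one_le _).trans ?_
    rw [abs_mul, abs_of_nonneg (dl_nonneg j _ _)]
    have h1 := dl_mul_le (n := n) (b := b) hj (d.r k) (RJ J ω)
    push_cast at h1
    have h2 : (2 : ℝ) ^ (n - j) = 2 ^ (n - j') * 2 ^ (j' - j) := by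
      rw [← pow_add]; congr 1; omega
    rw [h2] at h1
    have h3 : dl j (d.r k) (RJ J ω) * |(y : ℝ) - x| ≤ 2 / 2 ^ b / 2 ^ (j' - j) := by
      rw [le_div_iff₀ (by positivity)]
      refine le_trans ?_ h1
      rw [mul_assoc]
      refine mul_le_mul_of_nonneg_left ?_ (dl_nonneg j _ _)
      exact mul_le_mul_of_nonneg_right hxy (by positivity)
    calc 2 * Real.pi * (dl j (d.r k) (RJ J ω) * |(y : ℝ) - x|)
        ≤ 2 * Real.pi * (2 / 2 ^ b / 2 ^ (j' - j)) :=
          mul_le_mul_of_nonneg_left h3 (by positivity)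
      _ = _ := by ring
  have hmain : (∑ q : QJ J, gz d J θ j a k i q x * (kerJ J y q : ℂ) * ch n b (-(i * y))) -
      cz d J θ j a k i x * ch n b (-(d.r k * y)) =
      d.A k x / (4 * phiJ J j (EZ d J θ j a k)) *
      ∑ ω : QJ J, if rd n b j (RJ J ω) ∈ EZ d J θ j a k ∧
        em (n + b) j (rd n b j (d.r k) + rd n b j (RJ J ω)) = i then
        (wtJ J ω : ℂ) * ccJ J ω * ch n b (-(d.r k * y)) *
          (e (dl j (d.r k) (RJ J ω) * (y - x)) - 1) else 0 := by
    have h1 : (∑ q : QJ J, gz d J θ j a k i q x * (kerJ J y q : ℂ) * ch n b (-(i * y))) =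
        d.A k x / (4 * phiJ J j (EZ d J θ j a k)) *
        ∑ ω : QJ J, if rd n b j (RJ J ω) ∈ EZ d J θ j a k ∧
        em (n + b) j (rd n b j (d.r k) + rd n b j (RJ J ω)) = i then
        (wtJ J ω : ℂ) * ((∑ q : QJ J, (kerJ J y q : ℂ) * psiJ J ω q) *
          (e (-dl j (d.r k) (RJ J ω) * x) * ch n b (-(i * y)))) else 0 := by
      unfold gz
      simp only [mul_assoc, sum_mul, ← mul_sum]
      congr 1
      rw [sum_comm]
      refine sum_congr rfl fun ω _ => ?_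
      split_ifs
      · rw [mul_sum]
        exact sum_congr rfl fun q _ => by ring
      · simp
    rw [h1]
    unfold cz
    rw [mul_assoc, ← mul_sub, sum_mul, ← sum_sub_distrib]
    congr 1
    refine sum_congr rfl fun ω _ => ?_
    split_ifs with h
    · have h2 := ch_split (hj.trans (Nat.le_add_right n b)) (d.r k) (RJ J ω) y
      rw [h.2] at h2
      have h3 : e (-dl j (d.r k) (RJ J ω) * x) =
          e (-dl j (d.r k) (RJ J ω) * y) * e (dl j (d.r k) (RJ J ω) * (y - x)) := by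
        rw [← e_add]; congr 1; ring
      rw [sum_psi_ker, h3, h2]
      ring
    · simp
  rw [hmain, norm_mul]
  have h5 : ‖∑ ω : QJ J, if rd n b j (RJ J ω) ∈ EZ d J θ j a k ∧
        em (n + b) j (rd n b j (d.r k) + rd n b j (RJ J ω)) = i then
        (wtJ J ω : ℂ) * ccJ J ω * ch n b (-(d.r k * y)) *
          (e (dl j (d.r k) (RJ J ω) * (y - x)) - 1) else 0‖ ≤
      4 * Real.pi / 2 ^ b / 2 ^ (j' - j) * wz d J θ j a k i := by
    unfold wz
    rw [mul_sum]
    refine (norm_sum_le _ _).trans (sum_le_sum fun ω _ => ?_)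
    split_ifs
    · rw [norm_mul, norm_mul, norm_mul, norm_ch, mul_one, Complex.norm_real,
        Real.norm_of_nonneg (wtJ_nonneg hJ ω)]
      have h6 := norm_ccJ_le hJ' ω
      have h7 := wtJ_nonneg hJ ω
      have h8 := hdl ω
      calc wtJ J ω * ‖ccJ J ω‖ * ‖e (dl j (d.r k) (RJ J ω) * (y - x)) - 1‖
          ≤ wtJ J ω * 1 * (4 * Real.pi / 2 ^ b / 2 ^ (j' - j)) :=
            mul_le_mul (mul_le_mul_of_nonneg_left h6 h7) h8 (norm_nonneg _) (by linarith)
        _ = _ := by ring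
    · rw [norm_zero, mul_zero]
  calc ‖d.A k x / (4 * phiJ J j (EZ d J θ j a k))‖ * _
      ≤ d.a k x * (4 * Real.pi / 2 ^ b / 2 ^ (j' - j) * wz d J θ j a k i) :=
        mul_le_mul (coef_le (d.A_le k x) hφ) h5 (norm_nonneg _) (d.a_nonneg k x)
    _ = _ := by ring

end

end Vale.Agent.P091.T.H120
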